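import Vale.Agent.P220.H592.Defs

/-!
# Coordinates of covectors
-/

open scoped Manifold ContDiff Bundle Topology
open Set Bundle

namespace Vale.Agent.P220.H592


variable {V : Type*} [NormedAddCommGroup V] [NormedSpace ℝ V] [FiniteDimensional ℝ V] {Q : Type*} [TopologicalSpace Q] [ChartedSpace V Q] [IsManifold 𝓘(ℝ, V) ∞ Q]
  {L : Type*} [TopologicalSpace L] [ChartedSpace V L]

/-- coordinate covector of `ξ` in the chart at `q0` -/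
noncomputable def cov (q0 : Q) (ξ : CotangentBundle V Q) : V →L[ℝ] ℝ :=
  (trivializationAt (V →L[ℝ] ℝ) (fun q : Q => TangentSpace 𝓘(ℝ, V) q →L[ℝ] ℝ) q0 ξ).2

theorem cov_apply {q0 : Q} {ξ : CotangentBundle V Q} (h : ξ.1 ∈ (chartAt V q0).source)
    (v : V) :
    cov q0 ξ v = ξ.2 (mfderivWithin 𝓘(ℝ, V) 𝓘(ℝ, V) (extChartAt 𝓘(ℝ, V) q0).symm (range 𝓘(ℝ, V))
      (extChartAt 𝓘(ℝ, V) q0 ξ.1) v) := by
  unfold cov
  rw [hom_trivializationAt_apply]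
  simp only [ContinuousLinearMap.inCoordinates]
  rw [TangentBundle.symmL_trivializationAt h]
  simp
  rfl

theorem snd_apply {q0 : Q} {ξ : CotangentBundle V Q} (h : ξ.1 ∈ (chartAt V q0).source)
    (w : TangentSpace 𝓘(ℝ, V) ξ.1) :
    ξ.2 w = cov q0 ξ (mfderiv 𝓘(ℝ, V) 𝓘(ℝ, V) (extChartAt 𝓘(ℝ, V) q0) ξ.1 w) := by
  have h' : ξ.1 ∈ (extChartAt 𝓘(ℝ, V) q0).source := by simpa using h
  have h2 : extChartAt 𝓘(ℝ, V) q0 ξ.1 ∈ (extChartAt 𝓘(ℝ, V) q0).target :=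
    (extChartAt 𝓘(ℝ, V) q0).map_source h'
  have h3 := mfderivWithin_extChartAt_symm_comp_mfderiv_extChartAt' (I := 𝓘(ℝ, V)) h'
  have h4 := congrArg (fun l : TangentSpace 𝓘(ℝ, V) ξ.1 →L[ℝ] TangentSpace 𝓘(ℝ, V) ξ.1 => ξ.2 (l w)) h3
  refine Eq.trans ?_ (cov_apply h _).symm
  exact h4.symm

end Vale.Agent.P220.H592
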