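import Vale.Agent.P220.H592.Struct

/-!
# Cotangent lifts in coordinates
-/

open scoped Manifold ContDiff Bundle Topology
open Set Bundle Filter

namespace Vale.Agent.P220.H592


variable {V : Type*} [NormedAddCommGroup V] [NormedSpace ℝ V] [FiniteDimensional ℝ V] {Q : Type*} [TopologicalSpace Q] [ChartedSpace V Q] [IsManifold 𝓘(ℝ, V) ∞ Q]

/-- `Zc` is injective over the chart domain. -/
theorem eq_of_Zc_eq {q1 : Q} {ξ η : CotangentBundle V Q} (hξ : ξ.1 ∈ (chartAt V q1).source)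
    (hη : η.1 ∈ (chartAt V q1).source) (h : Zc q1 ξ = Zc q1 η) : ξ = η :=
  (extChartAt (modelCot V) (⟨q1, 0⟩ : CotangentBundle V Q)).injOn (mem_Zc_source hξ)
    (mem_Zc_source hη) h

instance [T2Space Q] : T2Space (CotangentBundle V Q) := by
  refine ⟨fun ξ η hne => ?_⟩
  have hproj : Continuous (fun ζ : CotangentBundle V Q => ζ.1) :=
    FiberBundle.continuous_proj (V →L[ℝ] ℝ) (fun q : Q => TangentSpace 𝓘(ℝ, V) q →L[ℝ] ℝ)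
  by_cases h : ξ.1 = η.1
  · set e := extChartAt (modelCot V) (⟨ξ.1, 0⟩ : CotangentBundle V Q) with he
    have h1 : ξ ∈ e.source := mem_Zc_source (mem_chart_source _ _)
    have h2 : η ∈ e.source := mem_Zc_source (by rw [h]; exact mem_chart_source _ _)
    have h3 : e ξ ≠ e η := fun h4 => hne (e.injOn h1 h2 h4)
    obtain ⟨u, v, hu, hv, hξu, hηv, huv⟩ := t2_separation h3
    refine ⟨e.source ∩ e ⁻¹' u, e.source ∩ e ⁻¹' v, ?_, ?_, ⟨h1, hξu⟩, ⟨h2, hηv⟩, ?_⟩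
    · exact (continuousOn_extChartAt _).isOpen_inter_preimage (isOpen_extChartAt_source _) hu
    · exact (continuousOn_extChartAt _).isOpen_inter_preimage (isOpen_extChartAt_source _) hv
    · rw [Set.disjoint_iff]
      rintro ζ ⟨⟨-, hz1⟩, ⟨-, hz2⟩⟩
      exact (Set.disjoint_iff.1 huv) ⟨hz1, hz2⟩
  · obtain ⟨u, v, hu, hv, hξu, hηv, huv⟩ := t2_separation h
    exact ⟨_, _, hu.preimage hproj, hv.preimage hproj, hξu, hηv, huv.preimage _⟩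

/-- the diffeomorphism in charts -/
noncomputable def Xi (ψ : Diffeomorph 𝓘(ℝ, V) 𝓘(ℝ, V) Q Q ∞) (q1 q2 : Q) (s : V) : V :=
  extChartAt 𝓘(ℝ, V) q2 (ψ ((extChartAt 𝓘(ℝ, V) q1).symm s))

theorem Xi_contDiffAt (ψ : Diffeomorph 𝓘(ℝ, V) 𝓘(ℝ, V) Q Q ∞) {q1 q2 q : Q}
    (h1 : q ∈ (chartAt V q1).source) (h2 : ψ q ∈ (chartAt V q2).source) :
    ContDiffAt ℝ ∞ (Xi ψ q1 q2) (extChartAt 𝓘(ℝ, V) q1 q) := by
  have h3 : q ∈ (extChartAt 𝓘(ℝ, V) q1).source := by simpa using h1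
  have h4 : ContMDiffAt 𝓘(ℝ, V) 𝓘(ℝ, V) ∞ (extChartAt 𝓘(ℝ, V) q2) (ψ q) :=
    contMDiffAt_extChartAt' h2
  have h5 : ContMDiffAt 𝓘(ℝ, V) 𝓘(ℝ, V) ∞ ψ q := ψ.contMDiff q
  exact contDiffAt_comp_symm (g := extChartAt 𝓘(ℝ, V) q2 ∘ ψ) h3 (h4.comp q h5)

omit [IsManifold 𝓘(ℝ, V) ∞ Q] in
theorem mfderiv_diffeo_injective (ψ : Diffeomorph 𝓘(ℝ, V) 𝓘(ℝ, V) Q Q ∞) (q : Q) :
    Function.Injective (mfderiv 𝓘(ℝ, V) 𝓘(ℝ, V) ψ q) := by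
  have := (ψ.mfderivToContinuousLinearEquiv (by simp) q).injective
  exact this

omit [IsManifold 𝓘(ℝ, V) ∞ Q] in
theorem mfderiv_inverse_apply (ψ : Diffeomorph 𝓘(ℝ, V) 𝓘(ℝ, V) Q Q ∞) (q : Q)
    (a : TangentSpace 𝓘(ℝ, V) q) :
    (mfderiv 𝓘(ℝ, V) 𝓘(ℝ, V) ψ q).inverse (mfderiv 𝓘(ℝ, V) 𝓘(ℝ, V) ψ q a) = a := by
  have h1 : (ψ.mfderivToContinuousLinearEquiv (by simp) q : TangentSpace 𝓘(ℝ, V) q →L[ℝ]
      TangentSpace 𝓘(ℝ, V) (ψ q)) = mfderiv 𝓘(ℝ, V) 𝓘(ℝ, V) ψ q := rfl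
  rw [← h1, ContinuousLinearMap.inverse_equiv]
  exact (ψ.mfderivToContinuousLinearEquiv (by simp) q).symm_apply_apply a

theorem fderiv_Xi (ψ : Diffeomorph 𝓘(ℝ, V) 𝓘(ℝ, V) Q Q ∞) {q1 q2 q : Q}
    (h1 : q ∈ (chartAt V q1).source) (h2 : ψ q ∈ (chartAt V q2).source) (u : V) :
    fderiv ℝ (Xi ψ q1 q2) (extChartAt 𝓘(ℝ, V) q1 q) u =
      mfderiv 𝓘(ℝ, V) 𝓘(ℝ, V) (extChartAt 𝓘(ℝ, V) q2) (ψ q)
        (mfderiv 𝓘(ℝ, V) 𝓘(ℝ, V) ψ q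
          (mfderiv 𝓘(ℝ, V) 𝓘(ℝ, V) (extChartAt 𝓘(ℝ, V) q1).symm (extChartAt 𝓘(ℝ, V) q1 q) u)) := by
  have h3 : q ∈ (extChartAt 𝓘(ℝ, V) q1).source := by simpa using h1
  have h4 : MDifferentiableAt 𝓘(ℝ, V) 𝓘(ℝ, V) (extChartAt 𝓘(ℝ, V) q2) (ψ q) :=
    mdifferentiableAt_extChartAt h2
  have h5 : MDifferentiableAt 𝓘(ℝ, V) 𝓘(ℝ, V) ψ q := (ψ.contMDiff q).mdifferentiableAt (by simp)
  refine (fderiv_comp_symm (g := extChartAt 𝓘(ℝ, V) q2 ∘ ψ) h3 (h4.comp q h5) u).trans ?_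
  rw [mfderiv_comp q h4 h5]
  rfl

/-- the coordinates of the cotangent lift -/
theorem cov_lift (ψ : Diffeomorph 𝓘(ℝ, V) 𝓘(ℝ, V) Q Q ∞) {q1 q2 : Q} {ξ : CotangentBundle V Q}
    (h1 : ξ.1 ∈ (chartAt V q1).source) (h2 : ψ ξ.1 ∈ (chartAt V q2).source) (u : V) :
    cov q2 (cotangentLift ψ ξ) (fderiv ℝ (Xi ψ q1 q2) (extChartAt 𝓘(ℝ, V) q1 ξ.1) u) =
      cov q1 ξ u := by
  have h0 : range 𝓘(ℝ, V) = univ := by simp
  have e1 := cov_apply h1 u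
  rw [h0, mfderivWithin_univ] at e1
  rw [e1]
  have e2 := snd_apply (ξ := cotangentLift ψ ξ) (q0 := q2) h2
    (mfderiv 𝓘(ℝ, V) 𝓘(ℝ, V) ψ ξ.1
          (mfderiv 𝓘(ℝ, V) 𝓘(ℝ, V) (extChartAt 𝓘(ℝ, V) q1).symm (extChartAt 𝓘(ℝ, V) q1 ξ.1) u))
  have e3 := congrArg (cov q2 (cotangentLift ψ ξ)) (fderiv_Xi ψ h1 h2 u)
  refine e3.trans (e2.symm.trans ?_)
  exact congrArg ξ.2 (mfderiv_inverse_apply ψ ξ.1 _)

theorem Xi_symm (ψ : Diffeomorph 𝓘(ℝ, V) 𝓘(ℝ, V) Q Q ∞) {q1 q2 q : Q}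
    (h1 : q ∈ (chartAt V q1).source) (h2 : ψ q ∈ (chartAt V q2).source) (u : V) :
    fderiv ℝ (Xi ψ.symm q2 q1) (extChartAt 𝓘(ℝ, V) q2 (ψ q))
      (fderiv ℝ (Xi ψ q1 q2) (extChartAt 𝓘(ℝ, V) q1 q) u) = u := by
  have h3 : q ∈ (extChartAt 𝓘(ℝ, V) q1).source := by simpa using h1
  have hψ : ψ.symm (ψ q) = q := ψ.symm_apply_apply q
  have d1 : DifferentiableAt ℝ (Xi ψ q1 q2) (extChartAt 𝓘(ℝ, V) q1 q) :=
    (Xi_contDiffAt ψ h1 h2).differentiableAt (by simp)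
  have d2 : DifferentiableAt ℝ (Xi ψ.symm q2 q1) (extChartAt 𝓘(ℝ, V) q2 (ψ q)) :=
    (Xi_contDiffAt ψ.symm h2 (by rw [hψ]; exact h1)).differentiableAt (by simp)
  have hval : Xi ψ q1 q2 (extChartAt 𝓘(ℝ, V) q1 q) = extChartAt 𝓘(ℝ, V) q2 (ψ q) := by
    unfold Xi
    rw [(extChartAt 𝓘(ℝ, V) q1).left_inv h3]
  have d2' : DifferentiableAt ℝ (Xi ψ.symm q2 q1) (Xi ψ q1 q2 (extChartAt 𝓘(ℝ, V) q1 q)) := by
    rw [hval]; exact d2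
  have hcomp := fderiv_comp (extChartAt 𝓘(ℝ, V) q1 q) d2' d1
  have hid : (Xi ψ.symm q2 q1 ∘ Xi ψ q1 q2) =ᶠ[𝓝 (extChartAt 𝓘(ℝ, V) q1 q)] id := by
    have hU1 : ∀ᶠ y in 𝓝 q, y ∈ (chartAt V q1).source :=
      (chartAt V q1).open_source.mem_nhds h1
    have hU2 : ∀ᶠ y in 𝓝 q, ψ y ∈ (chartAt V q2).source :=
      ψ.continuous.continuousAt.eventually ((chartAt V q2).open_source.mem_nhds h2)
    have hU := hU1.and hU2
    filter_upwards [eventually_chart h3 hU] with s hs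
    obtain ⟨y, hy1, rfl, hy2, hy3⟩ := hs
    simp only [Function.comp_apply, Xi, id_eq]
    rw [(extChartAt 𝓘(ℝ, V) q1).left_inv hy1, (extChartAt 𝓘(ℝ, V) q2).left_inv (by simpa using hy3)]
    simp
  rw [hid.fderiv_eq, fderiv_id, hval] at hcomp
  have := congrArg (fun l : V →L[ℝ] V => l u) hcomp
  exact this.symm

theorem cotangentLift_symm_apply (ψ : Diffeomorph 𝓘(ℝ, V) 𝓘(ℝ, V) Q Q ∞) (ξ : CotangentBundle V Q) :
    cotangentLift ψ.symm (cotangentLift ψ ξ) = ξ := by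
  have h1 : ξ.1 ∈ (chartAt V ξ.1).source := mem_chart_source _ _
  have h2 : ψ ξ.1 ∈ (chartAt V (ψ ξ.1)).source := mem_chart_source _ _
  have hb : (cotangentLift ψ.symm (cotangentLift ψ ξ)).1 = ξ.1 := ψ.symm_apply_apply ξ.1
  have h3 : (cotangentLift ψ.symm (cotangentLift ψ ξ)).1 ∈ (chartAt V ξ.1).source := by
    rw [hb]; exact h1
  apply eq_of_Zc_eq h3 h1
  rw [Zc_eq, Zc_eq, hb]
  congr 1
  ext u
  have e1 := cov_lift ψ h1 h2 u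
  have e2 := cov_lift ψ.symm (ξ := cotangentLift ψ ξ) (q1 := ψ ξ.1) (q2 := ξ.1) h2 h3
    (fderiv ℝ (Xi ψ ξ.1 (ψ ξ.1)) (extChartAt 𝓘(ℝ, V) ξ.1 ξ.1) u)
  rw [e1] at e2
  rw [← e2]
  exact congrArg _ (Xi_symm ψ h1 h2 u).symm

theorem cotangentLift_contMDiff (ψ : Diffeomorph 𝓘(ℝ, V) 𝓘(ℝ, V) Q Q ∞) :
    ContMDiff (modelCot V) (modelCot V) ∞ (cotangentLift ψ : CotangentBundle V Q → _) := by
  intro ξ0
  rw [Bundle.contMDiffAt_totalSpace]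
  have hproj : ContMDiff (modelCot V) 𝓘(ℝ, V) ∞ (fun ζ : CotangentBundle V Q => ζ.1) :=
    Bundle.contMDiff_proj (F := V →L[ℝ] ℝ) (fun q : Q => TangentSpace 𝓘(ℝ, V) q →L[ℝ] ℝ)
  refine ⟨(ψ.contMDiff.comp hproj) ξ0, ?_⟩
  set q1 := ξ0.1 with hq1
  set q2 := ψ q1 with hq2
  have h1 : ξ0.1 ∈ (chartAt V q1).source := mem_chart_source _ _
  have h2 : ψ ξ0.1 ∈ (chartAt V q2).source := mem_chart_source _ _
  -- covector coordinate is smooth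
  have hZ : ContMDiffAt (modelCot V) 𝓘(ℝ, V × (V →L[ℝ] ℝ)) ∞
      (fun ξ : CotangentBundle V Q => Zc q1 ξ) ξ0 := by
    apply contMDiffAt_extChartAt'
    have := mem_Zc_source (ξ := ξ0) h1
    rwa [extChartAt_source] at this
  have hc : ContMDiffAt (modelCot V) 𝓘(ℝ, V →L[ℝ] ℝ) ∞
      (fun ξ : CotangentBundle V Q => cov q1 ξ) ξ0 := by
    have h3 : ContMDiffAt (modelCot V) 𝓘(ℝ, V →L[ℝ] ℝ) ∞
      (fun ξ : CotangentBundle V Q => (Zc q1 ξ).2) ξ0 :=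
      (contDiff_snd.contMDiff (n := ∞)).contMDiffAt.comp ξ0 hZ
    refine h3.congr_of_eventuallyEq (Eventually.of_forall fun ξ => ?_)
    simp only [Zc_eq]
  have hk : ContMDiffAt (modelCot V) 𝓘(ℝ, V) ∞
      (fun ξ : CotangentBundle V Q => extChartAt 𝓘(ℝ, V) q1 ξ.1) ξ0 :=
    (contMDiffAt_extChartAt' h1).comp ξ0 (hproj ξ0)
  have hXi : ContDiffAt ℝ ∞ (fun s => (fderiv ℝ (Xi ψ q1 q2) s).inverse)
      (extChartAt 𝓘(ℝ, V) q1 ξ0.1) := by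
    have h4 : ContDiffAt ℝ ∞ (fderiv ℝ (Xi ψ q1 q2)) (extChartAt 𝓘(ℝ, V) q1 ξ0.1) :=
      (Xi_contDiffAt ψ h1 h2).fderiv_right (by simp)
    have hinj : Function.Injective (fderiv ℝ (Xi ψ q1 q2) (extChartAt 𝓘(ℝ, V) q1 ξ0.1)) := by
      intro a b hab
      rw [← Xi_symm ψ h1 h2 a, ← Xi_symm ψ h1 h2 b, hab]
    let e : V ≃L[ℝ] V := ContinuousLinearEquiv.ofBijective
      (fderiv ℝ (Xi ψ q1 q2) (extChartAt 𝓘(ℝ, V) q1 ξ0.1)) (LinearMap.ker_eq_bot.2 hinj)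
      (LinearMap.range_eq_top.2 (LinearMap.injective_iff_surjective.1 hinj))
    have he : (e : V →L[ℝ] V) = fderiv ℝ (Xi ψ q1 q2) (extChartAt 𝓘(ℝ, V) q1 ξ0.1) :=
      ContinuousLinearEquiv.coe_ofBijective _ _ _
    have h5 : ContDiffAt ℝ ∞ ContinuousLinearMap.inverse
        (fderiv ℝ (Xi ψ q1 q2) (extChartAt 𝓘(ℝ, V) q1 ξ0.1)) := by
      rw [← he]; exact contDiffAt_map_inverse e
    exact h5.comp _ h4
  have hprod : ContMDiffAt (modelCot V) 𝓘(ℝ, V →L[ℝ] ℝ) ∞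
      (fun ξ : CotangentBundle V Q => (cov q1 ξ).comp
        ((fderiv ℝ (Xi ψ q1 q2) (extChartAt 𝓘(ℝ, V) q1 ξ.1)).inverse)) ξ0 :=
    hc.clm_comp (hXi.contMDiffAt.comp ξ0 hk)
  refine hprod.congr_of_eventuallyEq ?_
  have hU1 : ∀ᶠ ξ : CotangentBundle V Q in 𝓝 ξ0, ξ.1 ∈ (chartAt V q1).source :=
    hproj.continuous.continuousAt.eventually ((chartAt V q1).open_source.mem_nhds h1)
  have hU2 : ∀ᶠ ξ : CotangentBundle V Q in 𝓝 ξ0, ψ ξ.1 ∈ (chartAt V q2).source :=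
    (ψ.continuous.comp hproj.continuous).continuousAt.eventually
        ((chartAt V q2).open_source.mem_nhds h2)
  have hU := hU1.and hU2
  filter_upwards [hU] with ξ hξ
  obtain ⟨hξ1, hξ2⟩ := hξ
  have hinj : Function.Injective (fderiv ℝ (Xi ψ q1 q2) (extChartAt 𝓘(ℝ, V) q1 ξ.1)) := by
    intro a b hab
    rw [← Xi_symm ψ hξ1 hξ2 a, ← Xi_symm ψ hξ1 hξ2 b, hab]
  have hsurj := LinearMap.injective_iff_surjective.1 hinj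
  let e : V ≃L[ℝ] V := ContinuousLinearEquiv.ofBijective
      (fderiv ℝ (Xi ψ q1 q2) (extChartAt 𝓘(ℝ, V) q1 ξ.1)) (LinearMap.ker_eq_bot.2 hinj)
      (LinearMap.range_eq_top.2 hsurj)
  have he : (e : V →L[ℝ] V) = fderiv ℝ (Xi ψ q1 q2) (extChartAt 𝓘(ℝ, V) q1 ξ.1) :=
    ContinuousLinearEquiv.coe_ofBijective _ _ _
  have hgoal : cov q2 (cotangentLift ψ ξ) = (cov q1 ξ).comp
        ((fderiv ℝ (Xi ψ q1 q2) (extChartAt 𝓘(ℝ, V) q1 ξ.1)).inverse) := by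
    apply ContinuousLinearMap.ext
    intro w
    obtain ⟨u, rfl⟩ := hsurj w
    refine (cov_lift ψ hξ1 hξ2 u).trans ?_
    rw [← he, ContinuousLinearMap.inverse_equiv]
    change cov q1 ξ u = cov q1 ξ (e.symm (e u))
    rw [e.symm_apply_apply]
  exact hgoal

end Vale.Agent.P220.H592
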