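import Mathlib

/-!
# Linear algebra: a Lagrangian subspace is its own symplectic orthogonal

`exists_of_orthogonal`: if `A : E → E`, `B : E → E*` is an injective pair with isotropic image
in `E × E*` (for the canonical symplectic form), every vector `(a, c)` which is symplectically
orthogonal to the image belongs to it.
-/

namespace Vale.Agent.P220.H592

open Module

variable {E : Type*} [NormedAddCommGroup E] [NormedSpace ℝ E] [FiniteDimensional ℝ E]

theorem exists_of_orthogonal (A : E →L[ℝ] E) (B : E →L[ℝ] E →L[ℝ] ℝ)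
    (hsym : ∀ v w, B v (A w) = B w (A v))
    (himm : ∀ v, A v = 0 → B v = 0 → v = 0)
    (a : E) (c : E →L[ℝ] ℝ) (hort : ∀ v, B v a = c (A v)) :
    ∃ ξ, A ξ = a ∧ B ξ = c := by
  classical
  -- the linear map `v ↦ (A v, B v)`
  let T : E →ₗ[ℝ] (E × (E →L[ℝ] ℝ)) := A.toLinearMap.prod B.toLinearMap
  have hTinj : Function.Injective T := by
    rw [injective_iff_map_eq_zero]
    intro v hv
    have h1 : A v = 0 := congrArg Prod.fst hv
    have h2 : B v = 0 := congrArg Prod.snd hv
    exact himm v h1 h2
  -- the linear map `(a, b) ↦ (v ↦ B v a - b (A v))`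
  let S : (E × (E →L[ℝ] ℝ)) →ₗ[ℝ] (E →L[ℝ] ℝ) :=
    { toFun := fun x => (B.flip x.1) - x.2.comp A
      map_add' := by
        intro x y
        ext v
        simp
        ring
      map_smul' := by
        intro r x
        ext v
        simp
        ring }
  have hS : ∀ x v, S x v = B v x.1 - x.2 (A v) := fun x v => rfl
  -- `T` maps into the kernel of `S`
  have hTS : LinearMap.range T ≤ LinearMap.ker S := by
    rintro _ ⟨w, rfl⟩
    rw [LinearMap.mem_ker]
    ext v
    have h1 : (T w).1 = A w := rfl
    have h2 : (T w).2 = B w := rfl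
    rw [hS, h1, h2, hsym v w, sub_self]
    rfl
  -- `S` is surjective
  have hSsurj : Function.Surjective S := by
    rw [← LinearMap.range_eq_top]
    by_contra hne
    obtain ⟨φ, hφ0, hφ⟩ := Submodule.exists_le_ker_of_lt_top _ (lt_top_iff_ne_top.2 hne)
    -- `φ` is evaluation at a vector
    have hrefl : ∃ u : E, ∀ g : E →L[ℝ] ℝ, φ g = g u := by
      let ψ : Dual ℝ (Dual ℝ E) := φ ∘ₗ (LinearMap.toContinuousLinearMap : (E →ₗ[ℝ] ℝ) ≃ₗ[ℝ] _).toLinearMap
      obtain ⟨u, hu⟩ := (evalEquiv ℝ E).surjective ψ
      refine ⟨u, fun g => ?_⟩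
      have := congrArg (fun f => f g.toLinearMap) hu
      simp only [evalEquiv_apply, Dual.eval_apply] at this
      have h2 : ψ g.toLinearMap = φ g := by
        simp only [ψ, LinearMap.comp_apply]
        congr 1
      rw [← h2, ← this]
      rfl
    obtain ⟨u, hu⟩ := hrefl
    have hker : ∀ x, S x u = 0 := by
      intro x
      have : S x ∈ LinearMap.ker φ := hφ ⟨x, rfl⟩
      rw [LinearMap.mem_ker, hu] at this
      exact this
    have hu0 : u = 0 := by
      apply himm
      · by_contra hne0
        obtain ⟨g, hg1, hg2⟩ := exists_dual_vector ℝ (A u) (norm_ne_zero_iff.2 hne0)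
        have := hker (0, g)
        rw [hS] at this
        simp only [map_zero, zero_sub, neg_eq_zero] at this
        rw [hg2] at this
        exact hne0 (by simpa using this)
      · ext a
        have := hker (a, 0)
        rw [hS] at this
        simpa using this
    apply hφ0
    ext g
    rw [hu, hu0]
    simp
  have hdim : finrank ℝ (LinearMap.ker S) = finrank ℝ (LinearMap.range T) := by
    have h1 := LinearMap.finrank_range_add_finrank_ker S
    rw [LinearMap.range_eq_top.2 hSsurj, finrank_top, finrank_prod] at h1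
    have h2 : finrank ℝ (E →L[ℝ] ℝ) = finrank ℝ E := by
      have := (LinearMap.toContinuousLinearMap : (E →ₗ[ℝ] ℝ) ≃ₗ[ℝ] (E →L[ℝ] ℝ)).finrank_eq
      rw [← this]
      exact Subspace.dual_finrank_eq
    rw [LinearMap.finrank_range_of_inj hTinj]
    omega
  have heq : LinearMap.range T = LinearMap.ker S :=
    Submodule.eq_of_le_of_finrank_eq hTS hdim.symm
  have hmem : ((a, c) : E × (E →L[ℝ] ℝ)) ∈ LinearMap.ker S := by
    rw [LinearMap.mem_ker]
    ext v
    rw [hS]
    simp [hort v]
  rw [← heq] at hmem
  obtain ⟨ξ, hξ⟩ := hmem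
  exact ⟨ξ, congrArg Prod.fst hξ, congrArg Prod.snd hξ⟩

end Vale.Agent.P220.H592
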