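import Vale.Agent.P220.H592.Coord

/-!
# Local coordinates
-/

open scoped Manifold ContDiff Bundle Topology
open Set Bundle Filter

namespace Vale.Agent.P220.H592


section generic

variable {V : Type*} [NormedAddCommGroup V] [NormedSpace ℝ V] [FiniteDimensional ℝ V] {L : Type*} [TopologicalSpace L] [ChartedSpace V L] [IsManifold 𝓘(ℝ, V) ∞ L]
  {F : Type*} [NormedAddCommGroup F] [NormedSpace ℝ F]

omit [IsManifold 𝓘(ℝ, V) ∞ L] in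
theorem target_mem_nhds {x0 x : L} (hx : x ∈ (extChartAt 𝓘(ℝ, V) x0).source) :
    (extChartAt 𝓘(ℝ, V) x0).target ∈ 𝓝 (extChartAt 𝓘(ℝ, V) x0 x) :=
  extChartAt_target_mem_nhds' ((extChartAt 𝓘(ℝ, V) x0).map_source hx)

theorem contMDiffAt_symm {x0 x : L} (hx : x ∈ (extChartAt 𝓘(ℝ, V) x0).source) :
    ContMDiffAt 𝓘(ℝ, V) 𝓘(ℝ, V) ∞ (extChartAt 𝓘(ℝ, V) x0).symm (extChartAt 𝓘(ℝ, V) x0 x) :=
  (contMDiffOn_extChartAt_symm x0).contMDiffAt (target_mem_nhds hx)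

theorem contDiffAt_comp_symm {g : L → F} {x0 x : L} (hx : x ∈ (extChartAt 𝓘(ℝ, V) x0).source)
    (hg : ContMDiffAt 𝓘(ℝ, V) 𝓘(ℝ, F) ∞ g x) :
    ContDiffAt ℝ ∞ (fun s => g ((extChartAt 𝓘(ℝ, V) x0).symm s)) (extChartAt 𝓘(ℝ, V) x0 x) := by
  rw [← contMDiffAt_iff_contDiffAt]
  have h1 : ContMDiffAt 𝓘(ℝ, V) 𝓘(ℝ, F) ∞ g
      ((extChartAt 𝓘(ℝ, V) x0).symm (extChartAt 𝓘(ℝ, V) x0 x)) := by
    rw [(extChartAt 𝓘(ℝ, V) x0).left_inv hx]; exact hg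
  exact h1.comp _ (contMDiffAt_symm hx)

theorem fderiv_comp_symm {g : L → F} {x0 x : L} (hx : x ∈ (extChartAt 𝓘(ℝ, V) x0).source)
    (hg : MDifferentiableAt 𝓘(ℝ, V) 𝓘(ℝ, F) g x) (v : V) :
    fderiv ℝ (fun s => g ((extChartAt 𝓘(ℝ, V) x0).symm s)) (extChartAt 𝓘(ℝ, V) x0 x) v =
      mfderiv 𝓘(ℝ, V) 𝓘(ℝ, F) g x
        (mfderiv 𝓘(ℝ, V) 𝓘(ℝ, V) (extChartAt 𝓘(ℝ, V) x0).symm (extChartAt 𝓘(ℝ, V) x0 x) v) := by
  have hxx := (extChartAt 𝓘(ℝ, V) x0).left_inv hx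
  have h1 : MDifferentiableAt 𝓘(ℝ, V) 𝓘(ℝ, F) g
      ((extChartAt 𝓘(ℝ, V) x0).symm (extChartAt 𝓘(ℝ, V) x0 x)) := by
    rw [hxx]; exact hg
  have h2 : MDifferentiableAt 𝓘(ℝ, V) 𝓘(ℝ, V) (extChartAt 𝓘(ℝ, V) x0).symm
      (extChartAt 𝓘(ℝ, V) x0 x) := (contMDiffAt_symm hx).mdifferentiableAt (by simp)
  rw [← mfderiv_eq_fderiv]
  have h3 := mfderiv_comp (extChartAt 𝓘(ℝ, V) x0 x) h1 h2
  have h4 := congrArg (fun l : V →L[ℝ] F => l v) h3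
  refine Eq.trans h4 ?_
  have h5 : ∀ y : L, y = x → ∀ w : V, (mfderiv 𝓘(ℝ, V) 𝓘(ℝ, F) g y : V →L[ℝ] F) w
      = (mfderiv 𝓘(ℝ, V) 𝓘(ℝ, F) g x : V →L[ℝ] F) w := by
    rintro y rfl w; rfl
  exact h5 _ hxx _

theorem mfderiv_symm_bijective {x0 x : L} (hx : x ∈ (extChartAt 𝓘(ℝ, V) x0).source) :
    Function.Bijective (mfderiv 𝓘(ℝ, V) 𝓘(ℝ, V) (extChartAt 𝓘(ℝ, V) x0).symm
      (extChartAt 𝓘(ℝ, V) x0 x)) := by
  have h1 := isInvertible_mfderivWithin_extChartAt_symm (I := 𝓘(ℝ, V)) (x := x0)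
    ((extChartAt 𝓘(ℝ, V) x0).map_source hx)
  have h2 : range 𝓘(ℝ, V) = univ := by simp
  rw [h2, mfderivWithin_univ] at h1
  obtain ⟨e, he⟩ := h1
  rw [← he]
  exact e.bijective

theorem mfderiv_chart_bijective {x0 x : L} (hx : x ∈ (extChartAt 𝓘(ℝ, V) x0).source) :
    Function.Bijective (mfderiv 𝓘(ℝ, V) 𝓘(ℝ, V) (extChartAt 𝓘(ℝ, V) x0) x) := by
  obtain ⟨e, he⟩ := isInvertible_mfderiv_extChartAt (I := 𝓘(ℝ, V)) (x := x0) hx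
  rw [← he]
  exact e.bijective

end generic

variable {V : Type*} [NormedAddCommGroup V] [NormedSpace ℝ V] [FiniteDimensional ℝ V] {Q : Type*} [TopologicalSpace Q] [ChartedSpace V Q] [IsManifold 𝓘(ℝ, V) ∞ Q]
  {L : Type*} [TopologicalSpace L] [ChartedSpace V L] [IsManifold 𝓘(ℝ, V) ∞ L]

/-- the projection of a parametrised Lagrangian to the base -/
def pr (i : L → CotangentBundle V Q) (x : L) : Q := (i x).1

/-- the full coordinate chart of `T*Q` over the chart at `q1` -/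
noncomputable def Zc (q1 : Q) (ξ : CotangentBundle V Q) : V × (V →L[ℝ] ℝ) :=
  extChartAt (modelCot V) (⟨q1, 0⟩ : CotangentBundle V Q) ξ

theorem Zc_eq (q1 : Q) (ξ : CotangentBundle V Q) :
    Zc q1 ξ = (extChartAt 𝓘(ℝ, V) q1 ξ.1, cov q1 ξ) := by
  unfold Zc cov
  rw [FiberBundle.extChartAt]
  simp only [PartialEquiv.coe_trans, Function.comp_apply, PartialEquiv.prod_coe,
    PartialEquiv.refl_coe, id_eq]
  refine Prod.ext ?_ rfl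
  exact congrArg (extChartAt 𝓘(ℝ, V) q1)
    (congrArg Prod.fst (hom_trivializationAt_apply (RingHom.id ℝ) q1 ξ))

theorem mem_Zc_source {q1 : Q} {ξ : CotangentBundle V Q} (h : ξ.1 ∈ (chartAt V q1).source) :
    ξ ∈ (extChartAt (modelCot V) (⟨q1, 0⟩ : CotangentBundle V Q)).source := by
  rw [extChartAt_source]
  simp only [FiberBundle.chartedSpace_chartAt, mfld_simps]
  refine ⟨⟨h, by simp⟩, ?_⟩
  rw [hom_trivializationAt_apply]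
  exact h

section

variable {i : L → CotangentBundle V Q} (hi : IsClosedExactLagrangian i)

include hi

omit [IsManifold 𝓘(ℝ, V) ∞ L] in
theorem pr_smooth : ContMDiff 𝓘(ℝ, V) 𝓘(ℝ, V) ∞ (pr i) :=
  (Bundle.contMDiff_proj (F := V →L[ℝ] ℝ)
    (fun q : Q => TangentSpace 𝓘(ℝ, V) q →L[ℝ] ℝ)).comp hi.smooth

omit [IsManifold 𝓘(ℝ, V) ∞ L] in
theorem Zc_smooth {q1 : Q} {x : L} (h : pr i x ∈ (chartAt V q1).source) :
    ContMDiffAt 𝓘(ℝ, V) 𝓘(ℝ, V × (V →L[ℝ] ℝ)) ∞ (fun y => Zc q1 (i y)) x := by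
  have h1 : ContMDiffAt (modelCot V) 𝓘(ℝ, V × (V →L[ℝ] ℝ)) ∞
      (extChartAt (modelCot V) (⟨q1, 0⟩ : CotangentBundle V Q)) (i x) := by
    apply contMDiffAt_extChartAt'
    have := mem_Zc_source (ξ := i x) h
    rwa [extChartAt_source] at this
  exact h1.comp x (hi.smooth x)

omit [IsManifold 𝓘(ℝ, V) ∞ L] in
theorem Zc_injective {q1 : Q} {x : L} (h : pr i x ∈ (chartAt V q1).source) :
    Function.Injective (mfderiv 𝓘(ℝ, V) 𝓘(ℝ, V × (V →L[ℝ] ℝ)) (fun y => Zc q1 (i y)) x) := by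
  have h0 := mem_Zc_source (ξ := i x) h
  obtain ⟨e, he⟩ := isInvertible_mfderiv_extChartAt (I := modelCot V) h0
  have h1 : MDifferentiableAt (modelCot V) 𝓘(ℝ, V × (V →L[ℝ] ℝ))
      (extChartAt (modelCot V) (⟨q1, 0⟩ : CotangentBundle V Q)) (i x) := by
    apply mdifferentiableAt_extChartAt
    rwa [extChartAt_source] at h0
  have h2 : MDifferentiableAt 𝓘(ℝ, V) (modelCot V) i x := (hi.smooth x).mdifferentiableAt (by simp)
  have h3 := mfderiv_comp x h1 h2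
  have h4 : Function.Injective ((mfderiv (modelCot V) 𝓘(ℝ, V × (V →L[ℝ] ℝ))
      (extChartAt (modelCot V) (⟨q1, 0⟩ : CotangentBundle V Q)) (i x)).comp
      (mfderiv 𝓘(ℝ, V) (modelCot V) i x)) := by
    rw [← he]
    exact e.injective.comp (hi.immersion x)
  rw [← h3] at h4
  exact h4

omit [IsManifold 𝓘(ℝ, V) ∞ L] in
theorem exact_apply {f : L → ℝ}
    (hf : ∀ x, (liouville (i x)) ∘L mfderiv 𝓘(ℝ, V) (modelCot V) i x = mfderiv 𝓘(ℝ, V) 𝓘(ℝ, ℝ) f x)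
    (x : L) (w : TangentSpace 𝓘(ℝ, V) x) :
    (i x).2 (mfderiv 𝓘(ℝ, V) 𝓘(ℝ, V) (pr i) x w) = mfderiv 𝓘(ℝ, V) 𝓘(ℝ, ℝ) f x w := by
  have h1 : MDifferentiableAt (modelCot V) 𝓘(ℝ, V) (fun η : CotangentBundle V Q => η.1) (i x) :=
    ((Bundle.contMDiff_proj (n := ∞) (IB := 𝓘(ℝ, V)) (F := V →L[ℝ] ℝ)
      (fun q : Q => TangentSpace 𝓘(ℝ, V) q →L[ℝ] ℝ)) (i x)).mdifferentiableAt (by simp)
  have h2 : MDifferentiableAt 𝓘(ℝ, V) (modelCot V) i x := (hi.smooth x).mdifferentiableAt (by simp)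
  have h3 := mfderiv_comp x h1 h2
  have h4 := congrArg (fun l : TangentSpace 𝓘(ℝ, V) x →L[ℝ] ℝ => l w) (hf x)
  have h5 := congrArg (fun l : TangentSpace 𝓘(ℝ, V) x →L[ℝ] TangentSpace 𝓘(ℝ, V) (i x).1 =>
    (i x).2 (l w)) h3
  exact h5.trans h4

end

/-- the local representative in coordinates -/
noncomputable def zs (i : L → CotangentBundle V Q) (q1 : Q) (x0 : L) (s : V) :
    V × (V →L[ℝ] ℝ) :=
  Zc q1 (i ((extChartAt 𝓘(ℝ, V) x0).symm s))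

section

variable {i : L → CotangentBundle V Q} (hi : IsClosedExactLagrangian i)

include hi

theorem zs_contDiffAt {q1 : Q} {x0 x : L} (hx : x ∈ (extChartAt 𝓘(ℝ, V) x0).source)
    (h : pr i x ∈ (chartAt V q1).source) :
    ContDiffAt ℝ ∞ (zs i q1 x0) (extChartAt 𝓘(ℝ, V) x0 x) :=
  contDiffAt_comp_symm hx (Zc_smooth hi h)

theorem zs_injective {q1 : Q} {x0 x : L} (hx : x ∈ (extChartAt 𝓘(ℝ, V) x0).source)
    (h : pr i x ∈ (chartAt V q1).source) :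
    Function.Injective (fderiv ℝ (zs i q1 x0) (extChartAt 𝓘(ℝ, V) x0 x)) := by
  have h1 : ∀ v, fderiv ℝ (zs i q1 x0) (extChartAt 𝓘(ℝ, V) x0 x) v = _ :=
    fun v => fderiv_comp_symm hx ((Zc_smooth hi h).mdifferentiableAt (by simp)) v
  intro v w hvw
  rw [h1, h1] at hvw
  exact (mfderiv_symm_bijective hx).injective (Zc_injective hi h hvw)

theorem zs_fst {q1 : Q} {x0 x : L} (hx : x ∈ (extChartAt 𝓘(ℝ, V) x0).source)
    (h : pr i x ∈ (chartAt V q1).source) (v : V) :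
    fderiv ℝ (fun s => (zs i q1 x0 s).1) (extChartAt 𝓘(ℝ, V) x0 x) v =
      mfderiv 𝓘(ℝ, V) 𝓘(ℝ, V) (extChartAt 𝓘(ℝ, V) q1) (pr i x)
        (mfderiv 𝓘(ℝ, V) 𝓘(ℝ, V) (pr i) x
          (mfderiv 𝓘(ℝ, V) 𝓘(ℝ, V) (extChartAt 𝓘(ℝ, V) x0).symm (extChartAt 𝓘(ℝ, V) x0 x) v)) := by
  have h0 : (fun s => (zs i q1 x0 s).1) =
      fun s => (extChartAt 𝓘(ℝ, V) q1 ∘ pr i) ((extChartAt 𝓘(ℝ, V) x0).symm s) := by
    funext s
    unfold zs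
    rw [Zc_eq]
    rfl
  have h1 : MDifferentiableAt 𝓘(ℝ, V) 𝓘(ℝ, V) (extChartAt 𝓘(ℝ, V) q1) (pr i x) :=
    mdifferentiableAt_extChartAt h
  have h2 : MDifferentiableAt 𝓘(ℝ, V) 𝓘(ℝ, V) (pr i) x := (pr_smooth hi x).mdifferentiableAt (by simp)
  rw [h0]
  refine (fderiv_comp_symm hx (h1.comp x h2) v).trans ?_
  rw [mfderiv_comp x h1 h2]
  rfl

end

end Vale.Agent.P220.H592
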