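import Vale.Agent.P220.H592.Prim

/-!
# Lagrangians with topologically transitive symmetry
-/

open scoped Manifold ContDiff Bundle Topology
open Set Bundle Filter

namespace Vale.Agent.P220.H592


variable {V : Type*} [NormedAddCommGroup V] [NormedSpace ℝ V] [FiniteDimensional ℝ V] {Q : Type*} [TopologicalSpace Q] [ChartedSpace V Q] [IsManifold 𝓘(ℝ, V) ∞ Q]
  {L : Type*} [TopologicalSpace L] [ChartedSpace V L] [IsManifold 𝓘(ℝ, V) ∞ L]
  {i : L → CotangentBundle V Q} (hi : IsClosedExactLagrangian i)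

/-- the zero section as a map -/
noncomputable def zq (q : Q) : CotangentBundle V Q := ⟨q, 0⟩

theorem zq_contMDiff : ContMDiff 𝓘(ℝ, V) (modelCot V) ∞ (zq : Q → CotangentBundle V Q) :=
  Bundle.contMDiff_zeroSection ℝ (F := V →L[ℝ] ℝ) (fun q : Q => TangentSpace 𝓘(ℝ, V) q →L[ℝ] ℝ)

section
include hi

theorem regVal_iff [T2Space Q] (ψ : Diffeomorph 𝓘(ℝ, V) 𝓘(ℝ, V) Q Q ∞)
    (h : cotangentLift ψ '' range i = range i) (q : Q) : ψ q ∈ RegVal i ↔ q ∈ RegVal i := by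
  constructor
  · intro hq x hx
    rw [← reg_sig_iff hi ψ h]
    apply hq
    rw [pr_sig ψ h, hx]
  · intro hq y hy
    obtain ⟨x, rfl⟩ := (sig_bijective hi ψ h).surjective y
    rw [reg_sig_iff hi ψ h]
    apply hq
    rw [pr_sig ψ h] at hy
    exact ψ.injective hy

omit [IsManifold 𝓘(ℝ, V) ∞ L] in
theorem exists_iff (ψ : Diffeomorph 𝓘(ℝ, V) 𝓘(ℝ, V) Q Q ∞)
    (h : cotangentLift ψ '' range i = range i) {P : L → Prop}
    (hP : ∀ x, P (sig i ψ h x) ↔ P x) (q : Q) :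
    (∃ x, P x ∧ pr i x = ψ q) ↔ ∃ x, P x ∧ pr i x = q := by
  constructor
  · rintro ⟨y, hy1, hy2⟩
    obtain ⟨x, rfl⟩ := (sig_bijective hi ψ h).surjective y
    rw [pr_sig ψ h] at hy2
    exact ⟨x, (hP x).1 hy1, ψ.injective hy2⟩
  · rintro ⟨x, hx1, hx2⟩
    exact ⟨sig i ψ h x, (hP x).2 hx1, by rw [pr_sig ψ h, hx2]⟩

theorem isOpen_over [T2Space Q] {O : Set L} (hO : IsOpen O) :
    IsOpen {q | q ∈ RegVal i ∧ ∃ x, x ∈ O ∧ pr i x = q} := by
  rw [isOpen_iff_mem_nhds]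
  rintro q ⟨hq, x, hx, rfl⟩
  have h1 := map_nhds_of_reg hi (hq x rfl)
  have h2 : pr i '' O ∈ 𝓝 (pr i x) := by
    rw [← h1]
    exact image_mem_map (hO.mem_nhds hx)
  filter_upwards [h2, (isOpen_regVal hi).mem_nhds hq] with q' hq1 hq2
  obtain ⟨y, hy1, hy2⟩ := hq1
  exact ⟨hq2, y, hy1, hy2⟩

omit [IsManifold 𝓘(ℝ, V) ∞ L] in
theorem isClosed_over [T2Space Q] {C : Set L} (hC : IsClosed C) :
    IsClosed {q | ∃ x, x ∈ C ∧ pr i x = q} := by
  have := hi.compact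
  exact (hC.isCompact.image (pr_smooth hi).continuous).isClosed

end

omit [IsManifold 𝓘(ℝ, V) ∞ Q] in
theorem image_eq_of_iff {ψ : Diffeomorph 𝓘(ℝ, V) 𝓘(ℝ, V) Q Q ∞} {U : Set Q}
    (h : ∀ q, ψ q ∈ U ↔ q ∈ U) : ψ '' U = U := by
  ext q
  constructor
  · rintro ⟨p, hp, rfl⟩
    exact (h p).2 hp
  · intro hq
    refine ⟨ψ.symm q, ?_, ψ.apply_symm_apply q⟩
    rw [← h, ψ.apply_symm_apply]
    exact hq

include hi in
/-- a clopen invariant part of a Lagrangian with transitive symmetry contains the zero section -/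
theorem zero_mem [T2Space Q] {Γ : Set (Diffeomorph 𝓘(ℝ, V) 𝓘(ℝ, V) Q Q ∞)}
    (hΓ : ∀ ψ ∈ Γ, cotangentLift ψ '' range i = range i)
    (htr : ∀ U : Set Q, IsOpen U → U.Nonempty → (∀ ψ ∈ Γ, ψ '' U = U) → Dense U)
    {A : Set L} (hA : IsClopen A) (hne : A.Nonempty)
    (hinv : ∀ ψ (hψ : ψ ∈ Γ) x, sig i ψ (hΓ ψ hψ) x ∈ A ↔ x ∈ A) (q : Q) :
    ∃ x ∈ A, i x = zq q := by
  have hcpt := hi.compact
  have hT2 := t2 hi
  have hlc : LocallyConnectedSpace L := ChartedSpace.locallyConnectedSpace V L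
  obtain ⟨f, hfs, hf⟩ := hi.exact
  have hfc : Continuous f := hfs.continuous
  set F := Fn f with hF
  have hFc : Continuous F := Fn_continuous hfc
  have hFinv : ∀ ψ (hψ : ψ ∈ Γ) x, F (sig i ψ (hΓ ψ hψ) x) = F x := by
    intro ψ hψ x
    let σ : L ≃ₜ L := Continuous.homeoOfEquivCompactToT2
      (f := Equiv.ofBijective _ (sig_bijective hi ψ (hΓ ψ hψ))) (sig_continuous hi ψ (hΓ ψ hψ))
    refine Fn_invariant hfc σ ?_ x
    have h1 : ContMDiff 𝓘(ℝ, V) 𝓘(ℝ, ℝ) ∞ (fun x => f (σ x) - f x) :=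
      (hfs.comp (sig_contMDiff hi ψ (hΓ ψ hψ))).sub hfs
    refine isLocallyConstant_of_mfderiv h1 ?_
    intro x v
    have e1 : MDifferentiableAt 𝓘(ℝ, V) 𝓘(ℝ, ℝ) (f ∘ sig i ψ (hΓ ψ hψ)) x :=
      ((hfs.comp (sig_contMDiff hi ψ (hΓ ψ hψ))) x).mdifferentiableAt (by simp)
    have e2 : MDifferentiableAt 𝓘(ℝ, V) 𝓘(ℝ, ℝ) f x := (hfs x).mdifferentiableAt (by simp)
    have e3 := mfderiv_sub e1 e2
    have e4 := mfderiv_comp_sig hi ψ (hΓ ψ hψ) hfs hf x v
    have e5 := congrArg (fun l : V →L[ℝ] ℝ => l v) e3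
    refine e5.trans ?_
    exact sub_eq_zero.2 e4
  -- invariant open sets
  have hdense : ∀ P : L → Prop, IsOpen {x | x ∈ A ∧ P x} →
      (∀ ψ (hψ : ψ ∈ Γ) x, P (sig i ψ (hΓ ψ hψ) x) ↔ P x) →
      {q | q ∈ RegVal i ∧ ∃ x, (x ∈ A ∧ P x) ∧ pr i x = q}.Nonempty →
      Dense {q | q ∈ RegVal i ∧ ∃ x, (x ∈ A ∧ P x) ∧ pr i x = q} := by
    intro P hPo hP hPne
    refine htr _ (isOpen_over hi hPo) hPne fun ψ hψ => image_eq_of_iff fun q => ?_
    refine and_congr (regVal_iff hi ψ (hΓ ψ hψ) q) ?_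
    exact exists_iff hi ψ (hΓ ψ hψ) (P := fun x => x ∈ A ∧ P x)
      (fun x => and_congr (hinv ψ hψ x) (hP ψ hψ x)) q
  -- the set of regular values in the image of `A`
  set V0 : Set Q := {q | q ∈ RegVal i ∧ ∃ x, (x ∈ A ∧ True) ∧ pr i x = q} with hV0
  have hAT : IsOpen {x | x ∈ A ∧ True} := by simpa using hA.isOpen
  have hV0o : IsOpen V0 := isOpen_over hi hAT
  have hV0ne : V0.Nonempty := by
    obtain ⟨x1, hx1⟩ := hne
    obtain ⟨x, hxA, -, hxr⟩ := exists_regular hi hA isOpen_univ hx1 (mem_univ _)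
    have h1 : pr i '' A ∈ 𝓝 (pr i x) := by
      rw [← map_nhds_of_reg hi hxr]
      exact image_mem_map (hA.isOpen.mem_nhds hxA)
    obtain ⟨q, hq1, y, hy1, hy2⟩ := (dense_regVal hi).inter_nhds_nonempty h1
    exact ⟨q, hq1, y, ⟨hy1, trivial⟩, hy2⟩
  have hV0d : Dense V0 := hdense (fun _ => True) hAT (fun _ _ _ => Iff.rfl) hV0ne
  -- maximisers over the fibres
  have hmaxex : ∀ q ∈ V0, ∃ x ∈ A, pr i x = q ∧ ∀ y ∈ A, pr i y = q → F y ≤ F x := by
    rintro q ⟨-, x1, ⟨hx1, -⟩, hx1q⟩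
    have hcl : IsClosed (A ∩ pr i ⁻¹' {q}) :=
      hA.isClosed.inter (isClosed_singleton.preimage (pr_smooth hi).continuous)
    obtain ⟨x, hx, hxmax⟩ := hcl.isCompact.exists_isMaxOn ⟨x1, hx1, hx1q⟩ hFc.continuousOn
    exact ⟨x, hx.1, hx.2, fun y hy1 hy2 => hxmax ⟨hy1, hy2⟩⟩
  -- the maximum is constant
  have hle : ∀ q1 ∈ V0, ∀ q2 ∈ V0, ∀ x1 ∈ A, ∀ x2 ∈ A, pr i x1 = q1 → pr i x2 = q2 →
      (∀ y ∈ A, pr i y = q1 → F y ≤ F x1) → F x2 ≤ F x1 := by
    intro q1 hq1 q2 hq2 x1 hx1 x2 hx2 hx1q hx2q hmax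
    by_contra hlt
    rw [not_le] at hlt
    obtain ⟨a, ha1, ha2⟩ := exists_between hlt
    set U2 : Set Q := {q | q ∈ RegVal i ∧ ∃ x, (x ∈ A ∧ a < F x) ∧ pr i x = q} with hU2
    have hU2o : IsOpen {x | x ∈ A ∧ a < F x} := hA.isOpen.inter (isOpen_lt continuous_const hFc)
    have hU2d : Dense U2 := hdense (fun x => a < F x) hU2o
      (fun ψ hψ x => by rw [hFinv ψ hψ x]) ⟨q2, hq2.1, x2, ⟨hx2, ha2⟩, hx2q⟩
    have hC : IsClosed {q | ∃ x, x ∈ {x | x ∈ A ∧ a ≤ F x} ∧ pr i x = q} :=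
      isClosed_over hi (hA.isClosed.inter (isClosed_le continuous_const hFc))
    have hU1 : IsOpen (V0 ∩ {q | ∃ x, x ∈ {x | x ∈ A ∧ a ≤ F x} ∧ pr i x = q}ᶜ) :=
      hV0o.inter hC.isOpen_compl
    have hU1ne : (V0 ∩ {q | ∃ x, x ∈ {x | x ∈ A ∧ a ≤ F x} ∧ pr i x = q}ᶜ).Nonempty := by
      refine ⟨q1, hq1, ?_⟩
      rintro ⟨x, ⟨hxA, hxa⟩, hxq⟩
      have := hmax x hxA hxq
      linarith
    obtain ⟨q', hq'1, hq'2⟩ := hU2d.inter_open_nonempty _ hU1 hU1ne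
    obtain ⟨-, x, ⟨hxA, hxa⟩, hxq⟩ := hq'2
    exact hq'1.2 ⟨x, ⟨hxA, hxa.le⟩, hxq⟩
  -- zero section over `V0`
  have hzero : ∀ q ∈ V0, ∃ x ∈ A, i x = zq q := by
    intro q hq
    obtain ⟨x, hxA, hxq, hxmax⟩ := hmaxex q hq
    have hreg : Reg i x := hq.1 x hxq
    refine ⟨x, hxA, ?_⟩
    have hloc : IsLocalMax f x := by
      have h1 : ∀ᶠ y in 𝓝 x, y ∈ A := hA.isOpen.mem_nhds hxA
      have h2 : ∀ᶠ y in 𝓝 x, pr i y ∈ V0 :=
        (pr_smooth hi).continuous.continuousAt.eventually (by rw [hxq]; exact hV0o.mem_nhds hq)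
      filter_upwards [h1, h2, Fn_eventually f x] with y hy1 hy2 hy3
      have h4 : F y ≤ F x := hle q hq (pr i y) hy2 x hxA y hy1 hxq rfl hxmax
      simp only [hF] at h4
      linarith
    have h5 := eq_zero_of_isLocalMax hi hfs hf hreg hloc
    have h6 : ∀ ξ : CotangentBundle V Q, ξ.1 = q → ξ.2 = 0 → ξ = zq q := by
      rintro ⟨q', p⟩ rfl hp
      unfold zq
      congr
    exact h6 (i x) hxq h5
  -- closedness
  have hcl : IsClosed {x | x ∈ A ∧ i x = zq (pr i x)} :=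
    hA.isClosed.inter (isClosed_eq hi.smooth.continuous
      (zq_contMDiff.continuous.comp (pr_smooth hi).continuous))
  have hcl2 := isClosed_over hi hcl
  have hsub : V0 ⊆ {q | ∃ x, x ∈ {x | x ∈ A ∧ i x = zq (pr i x)} ∧ pr i x = q} := by
    intro q hq
    obtain ⟨x, hxA, hx⟩ := hzero q hq
    have h7 : pr i x = q := by unfold pr; rw [hx]; rfl
    exact ⟨x, ⟨hxA, by rw [hx, h7]⟩, h7⟩
  have huniv := hcl2.closure_subset_iff.2 hsub (hV0d q)
  obtain ⟨x, ⟨hxA, hx⟩, hxq⟩ := huniv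
  exact ⟨x, hxA, by rw [hx, hxq]⟩

include hi in
/-- **Transitive symmetry.** -/
theorem range_eq_zeroSection [T2Space Q] [Nonempty L]
    {Γ : Set (Diffeomorph 𝓘(ℝ, V) 𝓘(ℝ, V) Q Q ∞)}
    (hΓ : ∀ ψ ∈ Γ, cotangentLift ψ '' range i = range i)
    (htr : ∀ U : Set Q, IsOpen U → U.Nonempty → (∀ ψ ∈ Γ, ψ '' U = U) → Dense U) :
    range i = zeroSection V Q := by
  have hemb := isClosedEmbedding hi
  have hall := zero_mem hi hΓ htr isClopen_univ univ_nonempty (fun _ _ _ => by simp)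
  have hall' : ∀ q : Q, ∃ x, i x = zq q := fun q => by
    obtain ⟨x, -, hx⟩ := hall q
    exact ⟨x, hx⟩
  choose z hz using hall'
  have hprz : ∀ q, pr i (z q) = q := fun q => by unfold pr; rw [hz]; rfl
  have hzc : Continuous z := by
    rw [hemb.isEmbedding.isInducing.continuous_iff]
    have : i ∘ z = zq := funext hz
    rw [this]
    exact zq_contMDiff.continuous
  have hzs : ContMDiff 𝓘(ℝ, V) 𝓘(ℝ, V) ∞ z := by
    intro q
    apply smooth_of_comp hi hzc.continuousAt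
    have : (fun q => i (z q)) = zq := funext hz
    rw [this]
    exact zq_contMDiff q
  have hreg : ∀ q, Reg i (z q) := by
    intro q
    have e0 : pr i ∘ z = id := funext hprz
    have e1 := mfderiv_comp q ((pr_smooth hi (z q)).mdifferentiableAt (by simp))
      ((hzs q).mdifferentiableAt (by simp))
    rw [e0, mfderiv_id] at e1
    have hinj : Function.Injective (mfderiv 𝓘(ℝ, V) 𝓘(ℝ, V) z q) := by
      intro v w hvw
      have e2 := congrArg (fun l : V →L[ℝ] V => l v) e1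
      have e3 := congrArg (fun l : V →L[ℝ] V => l w) e1
      refine e2.trans (Eq.trans ?_ e3.symm)
      exact congrArg (mfderiv 𝓘(ℝ, V) 𝓘(ℝ, V) (pr i) (z q)) hvw
    have hsurj := surjective_of_injective (V := V) (mfderiv 𝓘(ℝ, V) 𝓘(ℝ, V) z q) hinj
    intro a b hab
    obtain ⟨v, rfl⟩ := hsurj a
    obtain ⟨w, rfl⟩ := hsurj b
    have e2 := congrArg (fun l : V →L[ℝ] V => l v) e1
    have e3 := congrArg (fun l : V →L[ℝ] V => l w) e1
    have e4 : v = w := e2.trans (Eq.trans hab e3.symm)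
    rw [e4]
  -- the set of zero covectors
  set K0 : Set L := {x | i x = zq (pr i x)} with hK0
  have hK0z : ∀ x, x ∈ K0 ↔ z (pr i x) = x := by
    intro x
    constructor
    · intro hx
      apply hi.injective
      rw [hz]
      exact hx.symm
    · intro hx
      have := hz (pr i x)
      rw [hx] at this
      exact this
  have hK0c : IsClosed K0 := isClosed_eq hi.smooth.continuous
      (zq_contMDiff.continuous.comp (pr_smooth hi).continuous)
  have hK0o : IsOpen K0 := by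
    rw [isOpen_iff_mem_nhds]
    intro x hx
    have hzx := (hK0z x).1 hx
    have hr : Reg i x := by rw [← hzx]; exact hreg _
    obtain ⟨N, hN, hinj⟩ := injOn_of_reg hi hr
    have hc : ContinuousAt (fun y => z (pr i y)) x :=
      (hzc.comp (pr_smooth hi).continuous).continuousAt
    have hN' : ∀ᶠ w in 𝓝 (z (pr i x)), w ∈ N := by rw [hzx]; exact hN
    have hN2 : ∀ᶠ y in 𝓝 x, z (pr i y) ∈ N := hc.eventually hN'
    filter_upwards [hN, hN2] with y hy1 hy2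
    rw [hK0z]
    exact hinj hy2 hy1 (hprz _)
  have hsec : ∀ ξ : CotangentBundle V Q, ξ = zq ξ.1 ↔ ξ.2 = 0 := by
    rintro ⟨q, p⟩
    unfold zq
    constructor
    · intro h
      have := TotalSpace.mk_inj.1 h
      exact this
    · intro h
      have : p = 0 := h
      rw [this]
  have hK0univ : K0 = univ := by
    by_contra hcon
    have hne : (K0ᶜ).Nonempty := by
      rw [nonempty_compl]
      exact hcon
    have h1 := zero_mem hi hΓ htr (A := K0ᶜ) ⟨hK0o.isClosed_compl, hK0c.isOpen_compl⟩ hne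
      (by
        intro ψ hψ x
        rw [mem_compl_iff, mem_compl_iff, not_iff_not]
        have e1 : sig i ψ (hΓ ψ hψ) x ∈ K0 ↔ (i (sig i ψ (hΓ ψ hψ) x)).2 = 0 := hsec _
        have e2 : x ∈ K0 ↔ (i x).2 = 0 := hsec _
        have e3 : ∀ ξ η : CotangentBundle V Q, ξ = η → (ξ.2 = 0 ↔ η.2 = 0) := by
          rintro ξ η rfl; rfl
        rw [e1, e2, e3 _ _ (i_sig ψ (hΓ ψ hψ) x)]
        constructor
        · intro h
          ext w
          have e4 := congrArg (fun l : V →L[ℝ] ℝ => l (mfderiv 𝓘(ℝ, V) 𝓘(ℝ, V) ψ (i x).1 w)) h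
          refine Eq.trans ?_ e4
          exact (congrArg (i x).2 (mfderiv_inverse_apply ψ (i x).1 w)).symm
        · intro h
          change (i x).2 ∘L (mfderiv 𝓘(ℝ, V) 𝓘(ℝ, V) ψ (i x).1).inverse = 0
          rw [h]
          exact ContinuousLinearMap.zero_comp _)
    obtain ⟨x0⟩ := (inferInstance : Nonempty L)
    obtain ⟨x, hxA, hx⟩ := h1 (pr i x0)
    apply hxA
    have h2 : pr i x = pr i x0 := by unfold pr; rw [hx]; rfl
    change i x = zq (pr i x)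
    rw [h2]
    exact hx
  ext ξ
  constructor
  · rintro ⟨x, rfl⟩
    have hx : x ∈ K0 := by rw [hK0univ]; exact mem_univ x
    exact (hsec (i x)).1 hx
  · intro hξ
    exact ⟨z ξ.1, (hz ξ.1).trans ((hsec ξ).2 hξ).symm⟩

end Vale.Agent.P220.H592
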