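import Vale.Agent.P220.H592.Regular

/-!
# Existence of regular points, local structure at regular points
-/

open scoped Manifold ContDiff Bundle Topology
open Set Bundle Filter

namespace Vale.Agent.P220.H592


variable {V : Type*} [NormedAddCommGroup V] [NormedSpace ℝ V] [FiniteDimensional ℝ V] {Q : Type*} [TopologicalSpace Q] [ChartedSpace V Q] [IsManifold 𝓘(ℝ, V) ∞ Q]
  {L : Type*} [TopologicalSpace L] [ChartedSpace V L] [IsManifold 𝓘(ℝ, V) ∞ L]
  {i : L → CotangentBundle V Q} (hi : IsClosedExactLagrangian i)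

/-- regular points: `π ∘ i` is a local diffeomorphism -/
def Reg (i : L → CotangentBundle V Q) (x : L) : Prop :=
  Function.Injective (mfderiv 𝓘(ℝ, V) 𝓘(ℝ, V) (pr i) x)

include hi

/-- **Rank lemma for closed Lagrangians**: over every open set met by `L` there are points of `L`
which are transverse to the fibres. -/
theorem exists_regular [T2Space Q] {A : Set L} (hA : IsClopen A) {O : Set Q} (hO : IsOpen O)
    {x1 : L} (hx1A : x1 ∈ A) (hx1 : pr i x1 ∈ O) : ∃ x ∈ A, pr i x ∈ O ∧ Reg i x := by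
  have := hi.compact
  set q1 : Q := pr i x1 with hq1
  obtain ⟨g, hg⟩ := (SmoothBumpFunction.nhds_basis_support (I := 𝓘(ℝ, V)) (c := q1)
    (hO.mem_nhds hx1)).mem_iff.1 (hO.mem_nhds hx1)
  obtain ⟨hgO, -⟩ := hg
  -- the function to be maximised
  let b := Module.finBasis ℝ V
  let G : L → ℝ := fun x => g (pr i x) * (1 + ∑ j, (cov q1 (i x) (b j)) ^ 2)
  have hprc : Continuous (pr i) := (pr_smooth hi).continuous
  have hcovc : ∀ x, pr i x ∈ (chartAt V q1).source → ContinuousAt (fun y => cov q1 (i y)) x := by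
    intro x hx
    have h1 := (Zc_smooth hi hx).continuousAt
    have h2 : ContinuousAt (fun y => (Zc q1 (i y)).2) x := continuous_snd.continuousAt.comp h1
    refine h2.congr (Eventually.of_forall fun y => ?_)
    simp only [Zc_eq]
  have hGc : Continuous G := by
    rw [continuous_iff_continuousAt]
    intro x
    by_cases hx : pr i x ∈ (chartAt V q1).source
    · have h1 : ContinuousAt (fun y => g (pr i y)) x := (g.continuous.comp hprc).continuousAt
      have h2 := hcovc x hx
      have h3 : ∀ j ∈ (Finset.univ : Finset (Fin (Module.finrank ℝ V))),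
          ContinuousAt (fun y => (cov q1 (i y) (b j)) ^ 2) x := by
        intro j _
        exact (h2.clm_apply continuousAt_const).pow 2
      exact h1.mul (continuousAt_const.add (tendsto_finsetSum _ h3))
    · have h1 : pr i x ∉ tsupport g := fun h => hx (g.tsupport_subset_chartAt_source h)
      have h2 : ∀ᶠ y in 𝓝 x, pr i y ∉ tsupport g :=
        hprc.continuousAt.eventually ((isClosed_tsupport g).isOpen_compl.mem_nhds h1)
      have h3 : G =ᶠ[𝓝 x] fun _ => 0 := by
        filter_upwards [h2] with y hy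
        have : g (pr i y) = 0 := image_eq_zero_of_notMem_tsupport hy
        simp only [G, this, zero_mul]
      exact (continuousAt_const).congr h3.symm
  obtain ⟨x0, hx0A, hx0⟩ := hA.isClosed.isCompact.exists_isMaxOn ⟨x1, hx1A⟩ hGc.continuousOn
  have hmax : ∀ y ∈ A, G y ≤ G x0 := fun y hy => hx0 hy
  have hsum : ∀ y, 0 < 1 + ∑ j, (cov q1 (i y) (b j)) ^ 2 := by
    intro y
    have : 0 ≤ ∑ j, (cov q1 (i y) (b j)) ^ 2 := Finset.sum_nonneg fun j _ => sq_nonneg _
    linarith
  have hG1 : 0 < G x1 := by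
    have : g (pr i x1) = 1 := g.eq_one
    simp only [G, this, one_mul]
    exact hsum x1
  have hg0 : 0 < g (pr i x0) := by
    have h1 : 0 < G x0 := lt_of_lt_of_le hG1 (hmax x1 hx1A)
    exact (pos_iff_pos_of_mul_pos h1).2 (hsum x0)
  have hmem : pr i x0 ∈ Function.support g := hg0.ne'
  have hx0O : pr i x0 ∈ O := hgO (subset_tsupport g hmem)
  have hx0s : pr i x0 ∈ (chartAt V q1).source :=
    g.tsupport_subset_chartAt_source (subset_tsupport g hmem)
  -- coordinates at `x0`
  have hxs : x0 ∈ (extChartAt 𝓘(ℝ, V) x0).source := mem_extChartAt_source x0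
  set s0 := extChartAt 𝓘(ℝ, V) x0 x0 with hs0
  have hz : ContDiffAt ℝ ∞ (zs i q1 x0) s0 := zs_contDiffAt hi hxs hx0s
  have hQ : ContDiffAt ℝ ∞ (fun s => (zs i q1 x0 s).1) s0 := contDiffAt_fst.comp s0 hz
  have hP : ContDiffAt ℝ ∞ (fun s => (zs i q1 x0 s).2) s0 := contDiffAt_snd.comp s0 hz
  have hU : ∀ᶠ y in 𝓝 x0, pr i y ∈ (chartAt V q1).source :=
    hprc.continuousAt.eventually ((chartAt V q1).open_source.mem_nhds hx0s)
  have hUO : ∀ᶠ y in 𝓝 x0, pr i y ∈ O :=
    hprc.continuousAt.eventually (hO.mem_nhds hx0O)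
  have hval : ∀ y, y ∈ (extChartAt 𝓘(ℝ, V) x0).source → pr i y ∈ (chartAt V q1).source →
      (g.toContDiffBump ((zs i q1 x0 (extChartAt 𝓘(ℝ, V) x0 y)).1) *
        (1 + ∑ j, ((zs i q1 x0 (extChartAt 𝓘(ℝ, V) x0 y)).2 (b j)) ^ 2)) = G y := by
    intro y hy1 hy2
    rw [zs_chart hy1, Zc_eq]
    simp only [G]
    congr 1
    have := g.eqOn_source hy2
    exact this.symm
  have key := frequently_injective (E := V) b (s₀ := s0) (Qs := fun s => (zs i q1 x0 s).1)
    (Ps := fun s => (zs i q1 x0 s).2) (h := g.toContDiffBump)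
    (hQ.of_le (by norm_cast)) (hP.of_le (by norm_cast)) (g.toContDiffBump.contDiffAt)
    (by
      filter_upwards [eventually_chart hxs hU] with s hs
      obtain ⟨y, hy1, rfl, hy3⟩ := hs
      exact zs_symm hi hy1 hy3)
    (by
      intro v hv1 hv2
      have h1 : fderiv ℝ (zs i q1 x0) s0 v = 0 := by
        have h3 := (hz.differentiableAt (by simp)).hasFDerivAt
        have h4 : fderiv ℝ (fun s => (zs i q1 x0 s).1) s0 v = (fderiv ℝ (zs i q1 x0) s0 v).1 := by
          rw [(h3.fst).fderiv]; rfl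
        have h5 : fderiv ℝ (fun s => (zs i q1 x0 s).2) s0 v = (fderiv ℝ (zs i q1 x0) s0 v).2 := by
          rw [(h3.snd).fderiv]; rfl
        exact Prod.ext (h4.symm.trans hv1) (h5.symm.trans hv2)
      have h2 := zs_injective hi hxs hx0s
      exact (injective_iff_map_eq_zero _).1 h2 v h1)
    (by
      have := g.eqOn_source hx0s
      simp only [s0, zs_chart hxs, Zc_eq]
      rw [← show g (pr i x0) = g.toContDiffBump (extChartAt 𝓘(ℝ, V) q1 (i x0).1) from this]
      exact hg0)
    (by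
      have hUA : ∀ᶠ y in 𝓝 x0, pr i y ∈ (chartAt V q1).source ∧ y ∈ A :=
        hU.and (hA.isOpen.mem_nhds hx0A)
      have h1 : ∀ᶠ s in 𝓝 s0, ∃ y ∈ (extChartAt 𝓘(ℝ, V) x0).source,
          extChartAt 𝓘(ℝ, V) x0 y = s ∧ (pr i y ∈ (chartAt V q1).source ∧ y ∈ A) :=
        eventually_chart hxs hUA
      filter_upwards [h1] with s hs
      obtain ⟨y, hy1, rfl, hy3⟩ := hs
      have e1 := hval y hy1 hy3.1
      have e2 := hval x0 hxs hx0s
      simp only [s0]
      rw [e1, e2]
      exact hmax y hy3.2)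
  have hUA : ∀ᶠ y in 𝓝 x0, y ∈ A := hA.isOpen.mem_nhds hx0A
  obtain ⟨s, hs1, hs2⟩ := (key.and_eventually (eventually_chart hxs (hU.and (hUO.and hUA)))).exists
  obtain ⟨y, hy1, rfl, hy3⟩ := hs2
  exact ⟨y, hy3.2.2, hy3.2.1, (zs_regular_iff hi hy1 hy3.1).1 hs1⟩

end Vale.Agent.P220.H592
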