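import Vale.Agent.P220.H592.Sym

/-!
# The normalised primitive
-/

open scoped Manifold ContDiff Bundle Topology
open Set Bundle Filter

namespace Vale.Agent.P220.H592


section locConst

variable {V : Type*} [NormedAddCommGroup V] [NormedSpace ℝ V] [FiniteDimensional ℝ V] {L : Type*} [TopologicalSpace L] [ChartedSpace V L] [IsManifold 𝓘(ℝ, V) ∞ L]

theorem isLocallyConstant_of_mfderiv {g : L → ℝ} (hg : ContMDiff 𝓘(ℝ, V) 𝓘(ℝ, ℝ) ∞ g)
    (h0 : ∀ x (v : TangentSpace 𝓘(ℝ, V) x), mfderiv 𝓘(ℝ, V) 𝓘(ℝ, ℝ) g x v = 0) :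
    IsLocallyConstant g := by
  rw [IsLocallyConstant.iff_eventually_eq]
  intro x
  have hxs : x ∈ (extChartAt 𝓘(ℝ, V) x).source := mem_extChartAt_source x
  obtain ⟨r, hr, hball⟩ := Metric.mem_nhds_iff.1 (target_mem_nhds (V := V) hxs)
  have hd : ∀ s ∈ Metric.ball (extChartAt 𝓘(ℝ, V) x x) r,
      DifferentiableAt ℝ (fun s => g ((extChartAt 𝓘(ℝ, V) x).symm s)) s ∧
      fderiv ℝ (fun s => g ((extChartAt 𝓘(ℝ, V) x).symm s)) s = 0 := by
    intro s hs
    have h1 := hball hs
    have h2 := (extChartAt 𝓘(ℝ, V) x).map_target h1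
    have h3 := (extChartAt 𝓘(ℝ, V) x).right_inv h1
    have h4 := contDiffAt_comp_symm (V := V) h2 (hg ((extChartAt 𝓘(ℝ, V) x).symm s))
    rw [h3] at h4
    refine ⟨h4.differentiableAt (by simp), ?_⟩
    ext v
    have h5 := fderiv_comp_symm (V := V) h2
      ((hg ((extChartAt 𝓘(ℝ, V) x).symm s)).mdifferentiableAt (by simp)) v
    rw [h3] at h5
    exact h5.trans (h0 _ _)
  have hconst : ∀ s ∈ Metric.ball (extChartAt 𝓘(ℝ, V) x x) r,
      g ((extChartAt 𝓘(ℝ, V) x).symm s) = g ((extChartAt 𝓘(ℝ, V) x).symm (extChartAt 𝓘(ℝ, V) x x)) := by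
    intro s hs
    exact Metric.isOpen_ball.is_const_of_fderiv_eq_zero (𝕜 := ℝ)
      (convex_ball (extChartAt 𝓘(ℝ, V) x x) r).isPreconnected
      (fun s hs => (hd s hs).1.differentiableWithinAt) (fun s hs => (hd s hs).2) hs
      (Metric.mem_ball_self hr)
  have h6 : ∀ᶠ y in 𝓝 x, extChartAt 𝓘(ℝ, V) x y ∈ Metric.ball (extChartAt 𝓘(ℝ, V) x x) r :=
    (continuousAt_extChartAt x).eventually (Metric.ball_mem_nhds _ hr)
  filter_upwards [h6, extChartAt_source_mem_nhds (I := 𝓘(ℝ, V)) x] with y hy1 hy2
  have h7 := hconst _ hy1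
  rwa [(extChartAt 𝓘(ℝ, V) x).left_inv hy2, (extChartAt 𝓘(ℝ, V) x).left_inv hxs] at h7

end locConst

section top

variable {L : Type*} [TopologicalSpace L]

/-- the primitive, normalised to have maximum zero on every component -/
noncomputable def Fn (f : L → ℝ) (x : L) : ℝ := f x - sSup (f '' connectedComponent x)

theorem Fn_eventually [LocallyConnectedSpace L] (f : L → ℝ) (x : L) :
    ∀ᶠ y in 𝓝 x, Fn f y - Fn f x = f y - f x := by
  filter_upwards [isOpen_connectedComponent.mem_nhds (mem_connectedComponent (x := x))] with y hy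
  unfold Fn
  rw [connectedComponent_eq hy]
  ring

theorem Fn_continuous [LocallyConnectedSpace L] {f : L → ℝ} (hf : Continuous f) :
    Continuous (Fn f) := by
  rw [continuous_iff_continuousAt]
  intro x
  have h1 : ContinuousAt (fun y => f y - f x + Fn f x) x :=
    (hf.continuousAt.sub continuousAt_const).add continuousAt_const
  refine h1.congr ?_
  filter_upwards [Fn_eventually f x] with y hy
  linarith

theorem Fn_invariant [CompactSpace L] {f : L → ℝ} (hf : Continuous f) (σ : L ≃ₜ L)
    (hσ : IsLocallyConstant (fun x => f (σ x) - f x)) (x : L) : Fn f (σ x) = Fn f x := by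
  have h1 : connectedComponent (σ x) = σ '' connectedComponent x := by
    have := σ.image_connectedComponentIn (mem_univ x)
    rw [connectedComponentIn_univ, image_univ, σ.surjective.range_eq,
      connectedComponentIn_univ] at this
    exact this.symm
  set c := f (σ x) - f x with hc
  have h2 : ∀ y ∈ connectedComponent x, f (σ y) = OrderIso.addRight c (f y) := by
    intro y hy
    have := hσ.apply_eq_of_isPreconnected isPreconnected_connectedComponent hy
      (mem_connectedComponent (x := x))
    simp only [OrderIso.addRight_apply]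
    linarith
  have h3 : f '' connectedComponent (σ x) = OrderIso.addRight c '' (f '' connectedComponent x) := by
    rw [h1, image_image, image_image]
    exact image_congr h2
  have hne : (f '' connectedComponent x).Nonempty := ⟨f x, x, mem_connectedComponent, rfl⟩
  have hbdd : BddAbove (f '' connectedComponent x) :=
    (isCompact_range hf).bddAbove.mono (image_subset_range _ _)
  unfold Fn
  rw [h3, ← OrderIso.map_csSup' _ hne hbdd]
  simp only [OrderIso.addRight_apply]
  linarith

end top

end Vale.Agent.P220.H592
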