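import Mathlib

/-!
# P220: cotangent bundles, closed exact Lagrangians, cotangent lifts

Manifolds are modelled on a finite-dimensional real normed space `V` (so `dim Q = dim V`).

* `CotangentBundle V Q`: the cotangent bundle `T*Q`, with the topology and the smooth structure of
  Mathlib's bundle of continuous linear maps `T_q Q → ℝ`, modelled on `V × V*`.
* `liouville`: the canonical one-form `λ_{(q,p)}(v) = p (dπ v)`.
* `IsClosedExactLagrangian i`: `i : L → T*Q` is a smooth embedding of a compact manifold `L`,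
  `dim L = dim Q`, with `i^* λ = df` for a smooth `f : L → ℝ`.
* `cotangentLift ψ`: the cotangent lift `(q,p) ↦ (ψ q, p ∘ (d_q ψ)⁻¹)` of a diffeomorphism.
* `zeroSection`: the zero section, as a subset of `T*Q`.
-/

open scoped Manifold ContDiff Bundle

namespace Vale.Agent.P220

section

variable (V : Type*) [NormedAddCommGroup V] [NormedSpace ℝ V]
  (Q : Type*) [TopologicalSpace Q] [ChartedSpace V Q]

/-- The cotangent bundle `T*Q`, whose points are pairs `(q, p)`, `p : T_q Q → ℝ` linear. -/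
def CotangentBundle : Type _ :=
  Bundle.TotalSpace (V →L[ℝ] ℝ) (fun q : Q => TangentSpace 𝓘(ℝ, V) q →L[ℝ] ℝ)

variable [IsManifold 𝓘(ℝ, V) ∞ Q]

/-- Mathlib's topology on `T*Q`. -/
noncomputable instance CotangentBundle.instTop : TopologicalSpace (CotangentBundle V Q) :=
  inferInstanceAs (TopologicalSpace (Bundle.TotalSpace (V →L[ℝ] ℝ)
    (fun q : Q => TangentSpace 𝓘(ℝ, V) q →L[ℝ] ℝ)))

/-- Mathlib's atlas on `T*Q`, modelled on `V × V*`. -/
noncomputable instance CotangentBundle.instCharted :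
    ChartedSpace (V × (V →L[ℝ] ℝ)) (CotangentBundle V Q) :=
  inferInstanceAs (ChartedSpace (ModelProd V (V →L[ℝ] ℝ)) (Bundle.TotalSpace (V →L[ℝ] ℝ)
    (fun q : Q => TangentSpace 𝓘(ℝ, V) q →L[ℝ] ℝ)))

end

variable {V : Type*} [NormedAddCommGroup V] [NormedSpace ℝ V]
  {Q : Type*} [TopologicalSpace Q] [ChartedSpace V Q] [IsManifold 𝓘(ℝ, V) ∞ Q]
  {L : Type*} [TopologicalSpace L] [ChartedSpace V L]

/-- The canonical one-form `λ` of `T*Q` at `ξ = (q, p)`: `λ_ξ(v) = p (dπ(v))`,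
`π : T*Q → Q` the projection. -/
noncomputable def liouville (ξ : CotangentBundle V Q) :
    TangentSpace 𝓘(ℝ, V × (V →L[ℝ] ℝ)) ξ →L[ℝ] ℝ :=
  ξ.2 ∘L mfderiv 𝓘(ℝ, V × (V →L[ℝ] ℝ)) 𝓘(ℝ, V) (fun η : CotangentBundle V Q => η.1) ξ

/-- `i : L → T*Q` parametrises a closed exact Lagrangian submanifold: `L` (a manifold of the same
dimension as `Q`) is compact, `i` is an injective immersion (so an embedding), and `i^* λ = df` for
a smooth function `f` on `L` (so `i^* ω = 0` for `ω = dλ`). -/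
structure IsClosedExactLagrangian (i : L → CotangentBundle V Q) : Prop where
  compact : CompactSpace L
  smooth : ContMDiff 𝓘(ℝ, V) 𝓘(ℝ, V × (V →L[ℝ] ℝ)) ∞ i
  injective : Function.Injective i
  immersion : ∀ x, Function.Injective (mfderiv 𝓘(ℝ, V) 𝓘(ℝ, V × (V →L[ℝ] ℝ)) i x)
  exact : ∃ f : L → ℝ, ContMDiff 𝓘(ℝ, V) 𝓘(ℝ, ℝ) ∞ f ∧
    ∀ x, (liouville (i x)) ∘L mfderiv 𝓘(ℝ, V) 𝓘(ℝ, V × (V →L[ℝ] ℝ)) i x =
      mfderiv 𝓘(ℝ, V) 𝓘(ℝ, ℝ) f x

/-- The cotangent lift `(q, p) ↦ (ψ q, p ∘ (d_q ψ)⁻¹)` of a diffeomorphism `ψ` of `Q`. -/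
noncomputable def cotangentLift (ψ : Diffeomorph 𝓘(ℝ, V) 𝓘(ℝ, V) Q Q ∞)
    (ξ : CotangentBundle V Q) : CotangentBundle V Q :=
  ⟨ψ ξ.1, ξ.2 ∘L (mfderiv 𝓘(ℝ, V) 𝓘(ℝ, V) ψ ξ.1).inverse⟩

variable (V Q) in
/-- The zero section of `T*Q`. -/
def zeroSection : Set (CotangentBundle V Q) := {ξ | ξ.2 = 0}

end Vale.Agent.P220
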