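import Mathlib
import Vale.Agent.P220.H592.Lin

/-!
# A Lagrangian germ at a maximum of a fibrewise convex function

Local statement: let `s ↦ (Q s, P s) ∈ E × E*` be a Lagrangian immersion germ, and let
`h (Q s) * (1 + |P s|^2)` have a local maximum at `s₀`, with `h (Q s₀) > 0`. Then arbitrarily
close to `s₀` there are points at which `dQ` is injective.
-/

namespace Vale.Agent.P220.H592

open Module Filter Topology Set

variable {E : Type*} [NormedAddCommGroup E] [NormedSpace ℝ E] [FiniteDimensional ℝ E]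

/-- Second order necessary condition for a local maximum on the line. -/
theorem deriv_deriv_nonpos_of_isLocalMax {g g' : ℝ → ℝ} {g2 : ℝ}
    (hg : ∀ᶠ t in 𝓝 (0 : ℝ), HasDerivAt g (g' t) t) (hg' : HasDerivAt g' g2 0)
    (hmax : IsLocalMax g 0) : g2 ≤ 0 := by
  by_contra hpos
  push Not at hpos
  have h1 : deriv g =ᶠ[𝓝 0] g' := hg.mono fun t ht => ht.deriv
  have h2 : deriv (deriv g) 0 = g2 := by
    rw [h1.deriv_eq, hg'.deriv]
  have h3 : deriv g 0 = 0 := hmax.deriv_eq_zero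
  have hc : ContinuousAt g 0 := (hg.self_of_nhds).continuousAt
  have hmin : IsLocalMin g 0 := isLocalMin_of_deriv_deriv_pos (by rw [h2]; exact hpos) h3 hc
  have hconst : g =ᶠ[𝓝 0] fun _ => g 0 := by
    filter_upwards [hmax, hmin] with t ht1 ht2
    exact le_antisymm ht1 ht2
  have h4 : deriv g =ᶠ[𝓝 0] fun _ => 0 := by
    have := hconst.deriv
    filter_upwards [this] with t ht
    rw [ht]
    simp
  have h5 : deriv (deriv g) 0 = 0 := by
    rw [h4.deriv_eq]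
    simp
  rw [h2] at h5
  exact hpos.ne' h5

theorem tendsto_clm_apply {α F G : Type*} [NormedAddCommGroup F] [NormedSpace ℝ F]
    [NormedAddCommGroup G] [NormedSpace ℝ G] {l : Filter α} {L : α → F →L[ℝ] G} {w : α → F}
    {L0 : F →L[ℝ] G} {w0 : F} (hL : Tendsto L l (𝓝 L0)) (hw : Tendsto w l (𝓝 w0)) :
    Tendsto (fun a => L a (w a)) l (𝓝 (L0 w0)) :=
  ((isBoundedBilinearMap_apply (𝕜 := ℝ) (E := F) (F := G)).continuous.tendsto (L0, w0)).comp
    (hL.prodMk_nhds hw)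

variable {ι : Type*} [Fintype ι]

omit [FiniteDimensional ℝ E] in
/-- The key inequality on the kernel of `dQ`. -/
theorem crossing_form (e : ι → E)
    {s₀ : E} {Qs : E → E} {Ps : E → E →L[ℝ] ℝ} {h : E → ℝ}
    (hQ : ContDiffAt ℝ 2 Qs s₀) (hP : ContDiffAt ℝ 2 Ps s₀) (hh : ContDiffAt ℝ 2 h (Qs s₀))
    (hsym : ∀ᶠ s in 𝓝 s₀, ∀ v w,
      fderiv ℝ Ps s v (fderiv ℝ Qs s w) = fderiv ℝ Ps s w (fderiv ℝ Qs s v))
    (hmax : IsLocalMax (fun s => h (Qs s) * (1 + ∑ i, (Ps s (e i)) ^ 2)) s₀)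
    {ξ : E}
    (hξ1 : fderiv ℝ Qs s₀ ξ = (2 * h (Qs s₀)) • ∑ i, (Ps s₀ (e i)) • e i)
    (hξ2 : fderiv ℝ Ps s₀ ξ = -((1 + ∑ i, (Ps s₀ (e i)) ^ 2) • fderiv ℝ h (Qs s₀)))
    {v : E} (hv : fderiv ℝ Qs s₀ v = 0) :
    2 * h (Qs s₀) * ∑ i, (fderiv ℝ Ps s₀ v (e i)) ^ 2 ≤
      fderiv ℝ Ps s₀ v (fderiv ℝ (fderiv ℝ Qs) s₀ ξ v) := by
  -- differentiability facts
  have hQ1 : DifferentiableAt ℝ (fderiv ℝ Qs) s₀ :=
    (hQ.fderiv_right (m := 1) (by norm_num)).differentiableAt (by norm_num)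
  have hP1 : DifferentiableAt ℝ (fderiv ℝ Ps) s₀ :=
    (hP.fderiv_right (m := 1) (by norm_num)).differentiableAt (by norm_num)
  have hh1 : DifferentiableAt ℝ (fderiv ℝ h) (Qs s₀) :=
    (hh.fderiv_right (m := 1) (by norm_num)).differentiableAt (by norm_num)
  have hQev : ∀ᶠ s in 𝓝 s₀, DifferentiableAt ℝ Qs s :=
    (hQ.eventually (by norm_num)).mono fun s hs => hs.differentiableAt (by norm_num)
  have hPev : ∀ᶠ s in 𝓝 s₀, DifferentiableAt ℝ Ps s :=
    (hP.eventually (by norm_num)).mono fun s hs => hs.differentiableAt (by norm_num)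
  have hhev : ∀ᶠ q in 𝓝 (Qs s₀), DifferentiableAt ℝ h q :=
    (hh.eventually (by norm_num)).mono fun s hs => hs.differentiableAt (by norm_num)
  set Q2 := fderiv ℝ (fderiv ℝ Qs) s₀ with hQ2
  set P2 := fderiv ℝ (fderiv ℝ Ps) s₀ with hP2
  have hsymQ : ∀ u w, Q2 u w = Q2 w u := by
    intro u w
    have := (hQ.isSymmSndFDerivAt (by simp)) u w
    exact this
  -- derivative of the symmetry relation
  have hrel : P2 v v (fderiv ℝ Qs s₀ ξ) + fderiv ℝ Ps s₀ v (Q2 v ξ)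
      - (P2 v ξ (fderiv ℝ Qs s₀ v) + fderiv ℝ Ps s₀ ξ (Q2 v v)) = 0 := by
    have hA : HasFDerivAt (fun s => fderiv ℝ Ps s v (fderiv ℝ Qs s ξ)
        - fderiv ℝ Ps s ξ (fderiv ℝ Qs s v)) (0 : E →L[ℝ] ℝ) s₀ := by
      have : (fun s => fderiv ℝ Ps s v (fderiv ℝ Qs s ξ)
        - fderiv ℝ Ps s ξ (fderiv ℝ Qs s v)) =ᶠ[𝓝 s₀] fun _ => 0 := by
        filter_upwards [hsym] with s hs
        rw [hs v ξ, sub_self]
      exact (hasFDerivAt_const (0 : ℝ) s₀).congr_of_eventuallyEq this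
    have hcl : ∀ w : E, HasFDerivAt (fun s => fderiv ℝ Ps s w) (P2.flip w) s₀ := by
      intro w
      have := (hP1.hasFDerivAt).clm_apply (hasFDerivAt_const w s₀)
      refine this.congr_fderiv ?_
      ext x y
      simp [hP2]
    have hul : ∀ w : E, HasFDerivAt (fun s => fderiv ℝ Qs s w) (Q2.flip w) s₀ := by
      intro w
      have := (hQ1.hasFDerivAt).clm_apply (hasFDerivAt_const w s₀)
      refine this.congr_fderiv ?_
      ext x
      simp [hQ2]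
    have hB := ((hcl v).clm_apply (hul ξ)).sub ((hcl ξ).clm_apply (hul v))
    have := congrArg (fun L : E →L[ℝ] ℝ => L v) (hA.unique hB)
    simp at this
    linarith
  -- the function along the line
  have hline : ∀ t : ℝ, HasDerivAt (fun t : ℝ => s₀ + t • v) v t := by
    intro t
    simpa using ((hasDerivAt_id t).smul_const v).const_add s₀
  have hlc : Tendsto (fun t : ℝ => s₀ + t • v) (𝓝 0) (𝓝 s₀) := by
    have : Continuous fun t : ℝ => s₀ + t • v := by fun_prop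
    simpa using this.tendsto 0
  have hq : ∀ᶠ t in 𝓝 (0 : ℝ), HasDerivAt (fun t : ℝ => Qs (s₀ + t • v))
      (fderiv ℝ Qs (s₀ + t • v) v) t := by
    filter_upwards [hlc.eventually hQev] with t ht
    exact ht.hasFDerivAt.comp_hasDerivAt t (hline t)
  have hp : ∀ᶠ t in 𝓝 (0 : ℝ), HasDerivAt (fun t : ℝ => Ps (s₀ + t • v))
      (fderiv ℝ Ps (s₀ + t • v) v) t := by
    filter_upwards [hlc.eventually hPev] with t ht
    exact ht.hasFDerivAt.comp_hasDerivAt t (hline t)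
  have hqc : Tendsto (fun t : ℝ => Qs (s₀ + t • v)) (𝓝 0) (𝓝 (Qs s₀)) :=
    hQ.continuousAt.tendsto.comp hlc
  have hhq : ∀ᶠ t in 𝓝 (0 : ℝ), HasDerivAt (fun t : ℝ => h (Qs (s₀ + t • v)))
      (fderiv ℝ h (Qs (s₀ + t • v)) (fderiv ℝ Qs (s₀ + t • v) v)) t := by
    filter_upwards [hq, hqc.eventually hhev] with t ht1 ht2
    exact ht2.hasFDerivAt.comp_hasDerivAt t ht1
  have hN : ∀ᶠ t in 𝓝 (0 : ℝ), HasDerivAt (fun t : ℝ => 1 + ∑ i, (Ps (s₀ + t • v) (e i)) ^ 2)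
      (∑ i, 2 * Ps (s₀ + t • v) (e i) * (fderiv ℝ Ps (s₀ + t • v) v (e i))) t := by
    filter_upwards [hp] with t ht
    have : ∀ i ∈ (Finset.univ : Finset ι), HasDerivAt (fun t : ℝ => (Ps (s₀ + t • v) (e i)) ^ 2)
        (2 * Ps (s₀ + t • v) (e i) * (fderiv ℝ Ps (s₀ + t • v) v (e i))) t := by
      intro i _
      have h1 : HasDerivAt (fun t : ℝ => Ps (s₀ + t • v) (e i))
          (fderiv ℝ Ps (s₀ + t • v) v (e i)) t := by
        simpa using ht.clm_apply (hasDerivAt_const t (e i))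
      simpa using h1.fun_pow 2
    have := (HasDerivAt.fun_sum this).const_add 1
    exact this
  -- first derivative
  have hg : ∀ᶠ t in 𝓝 (0 : ℝ), HasDerivAt
      (fun t : ℝ => h (Qs (s₀ + t • v)) * (1 + ∑ i, (Ps (s₀ + t • v) (e i)) ^ 2))
      (fderiv ℝ h (Qs (s₀ + t • v)) (fderiv ℝ Qs (s₀ + t • v) v)
          * (1 + ∑ i, (Ps (s₀ + t • v) (e i)) ^ 2)
        + h (Qs (s₀ + t • v))
          * ∑ i, 2 * Ps (s₀ + t • v) (e i) * (fderiv ℝ Ps (s₀ + t • v) v (e i))) t := by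
    filter_upwards [hhq, hN] with t h1 h2
    exact h1.mul h2
  -- second derivatives of the ingredients at `0`
  have hq1 : HasDerivAt (fun t : ℝ => fderiv ℝ Qs (s₀ + t • v) v) (Q2 v v) 0 := by
    have h1 : HasDerivAt (fun t : ℝ => fderiv ℝ Qs (s₀ + t • v)) (Q2 v) 0 := by
      have h0 : HasFDerivAt (fderiv ℝ Qs) Q2 (s₀ + (0 : ℝ) • v) := by
        simpa [hQ2] using hQ1.hasFDerivAt
      exact h0.comp_hasDerivAt (0 : ℝ) (hline 0)
    simpa using h1.clm_apply (hasDerivAt_const (0 : ℝ) v)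
  have hp1 : HasDerivAt (fun t : ℝ => fderiv ℝ Ps (s₀ + t • v) v) (P2 v v) 0 := by
    have h1 : HasDerivAt (fun t : ℝ => fderiv ℝ Ps (s₀ + t • v)) (P2 v) 0 := by
      have h0 : HasFDerivAt (fderiv ℝ Ps) P2 (s₀ + (0 : ℝ) • v) := by
        simpa [hP2] using hP1.hasFDerivAt
      exact HasFDerivAt.comp_hasDerivAt (F := E) (E := E →L[ℝ] E →L[ℝ] ℝ) (0 : ℝ) h0 (hline 0)
    simpa using h1.clm_apply (hasDerivAt_const (0 : ℝ) v)
  have hh2 : HasDerivAt (fun t : ℝ => fderiv ℝ h (Qs (s₀ + t • v))) 0 0 := by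
    have h0 : HasFDerivAt (fderiv ℝ h) (fderiv ℝ (fderiv ℝ h) (Qs s₀)) (Qs (s₀ + (0 : ℝ) • v)) := by
      simpa using hh1.hasFDerivAt
    have h1 := h0.comp_hasDerivAt (0 : ℝ) hq.self_of_nhds
    have h2 : fderiv ℝ (fderiv ℝ h) (Qs s₀) (fderiv ℝ Qs (s₀ + (0 : ℝ) • v) v) = 0 := by
      simp [hv]
    rw [h2] at h1
    exact h1
  have ha : HasDerivAt (fun t : ℝ => fderiv ℝ h (Qs (s₀ + t • v)) (fderiv ℝ Qs (s₀ + t • v) v))
      (fderiv ℝ h (Qs s₀) (Q2 v v)) 0 := by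
    have := hh2.clm_apply hq1
    simpa using this
  have hb : HasDerivAt
      (fun t : ℝ => ∑ i, 2 * Ps (s₀ + t • v) (e i) * (fderiv ℝ Ps (s₀ + t • v) v (e i)))
      (∑ i, (2 * (fderiv ℝ Ps s₀ v (e i)) ^ 2 + 2 * Ps s₀ (e i) * (P2 v v (e i)))) 0 := by
    have : ∀ i ∈ (Finset.univ : Finset ι), HasDerivAt
        (fun t : ℝ => 2 * Ps (s₀ + t • v) (e i) * (fderiv ℝ Ps (s₀ + t • v) v (e i)))
        (2 * (fderiv ℝ Ps s₀ v (e i)) ^ 2 + 2 * Ps s₀ (e i) * (P2 v v (e i))) 0 := by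
      intro i _
      have h1 : HasDerivAt (fun t : ℝ => Ps (s₀ + t • v) (e i))
          (fderiv ℝ Ps (s₀ + (0 : ℝ) • v) v (e i)) 0 := by
        simpa using hp.self_of_nhds.clm_apply (hasDerivAt_const (0 : ℝ) (e i))
      have h2 : HasDerivAt (fun t : ℝ => fderiv ℝ Ps (s₀ + t • v) v (e i))
          (P2 v v (e i)) 0 := by
        simpa using hp1.clm_apply (hasDerivAt_const (0 : ℝ) (e i))
      have h3 := (h1.const_mul 2).mul h2
      refine h3.congr_deriv ?_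
      simp only [zero_smul, add_zero]
      ring
    exact HasDerivAt.fun_sum this
  have hg2 := (ha.mul hN.self_of_nhds).add (hhq.self_of_nhds.mul hb)
  have hmax0 : IsLocalMax
      (fun t : ℝ => h (Qs (s₀ + t • v)) * (1 + ∑ i, (Ps (s₀ + t • v) (e i)) ^ 2)) 0 := by
    have := hlc.eventually hmax
    filter_upwards [this] with t ht
    simpa using ht
  have key := deriv_deriv_nonpos_of_isLocalMax hg hg2 hmax0
  simp only [zero_smul, add_zero, hv, map_zero, zero_mul, zero_add] at key hrel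
  rw [hξ1, hξ2] at hrel
  rw [Finset.sum_add_distrib] at key
  have e1 : P2 v v ((2 * h (Qs s₀)) • ∑ i, (Ps s₀ (e i)) • e i)
      = h (Qs s₀) * ∑ i, 2 * Ps s₀ (e i) * (P2 v v (e i)) := by
    rw [map_smul, map_sum, smul_eq_mul, Finset.mul_sum, Finset.mul_sum]
    refine Finset.sum_congr rfl fun i _ => ?_
    rw [map_smul, smul_eq_mul]
    ring
  have e2 : (-((1 + ∑ i, (Ps s₀ (e i)) ^ 2) • fderiv ℝ h (Qs s₀))) (Q2 v v)
      = -((1 + ∑ i, (Ps s₀ (e i)) ^ 2) * fderiv ℝ h (Qs s₀) (Q2 v v)) := by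
    simp
  rw [e1, e2, hsymQ v ξ] at hrel
  have e3 : ∑ i, 2 * (fderiv ℝ Ps s₀ v (e i)) ^ 2 = 2 * ∑ i, (fderiv ℝ Ps s₀ v (e i)) ^ 2 := by
    rw [Finset.mul_sum]
  rw [e3] at key
  nlinarith [key, hrel]

/-- **Rank lemma.** A Lagrangian immersion germ `(Q, P)` for which the fibrewise strictly convex
function `h (Q s) * (1 + |P s|^2)`, `h (Q s₀) > 0`, has a local maximum at `s₀`, is transverse to
the fibres at points arbitrarily close to `s₀`. -/
theorem frequently_injective (e : Basis ι ℝ E)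
    {s₀ : E} {Qs : E → E} {Ps : E → E →L[ℝ] ℝ} {h : E → ℝ}
    (hQ : ContDiffAt ℝ 2 Qs s₀) (hP : ContDiffAt ℝ 2 Ps s₀) (hh : ContDiffAt ℝ 2 h (Qs s₀))
    (hsym : ∀ᶠ s in 𝓝 s₀, ∀ v w,
      fderiv ℝ Ps s v (fderiv ℝ Qs s w) = fderiv ℝ Ps s w (fderiv ℝ Qs s v))
    (himm : ∀ v, fderiv ℝ Qs s₀ v = 0 → fderiv ℝ Ps s₀ v = 0 → v = 0)
    (hpos : 0 < h (Qs s₀))
    (hmax : IsLocalMax (fun s => h (Qs s) * (1 + ∑ i, (Ps s (e i)) ^ 2)) s₀) :
    ∃ᶠ s in 𝓝 s₀, Function.Injective (fderiv ℝ Qs s) := by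
  have hQd : DifferentiableAt ℝ Qs s₀ := hQ.differentiableAt (by norm_num)
  have hPd : DifferentiableAt ℝ Ps s₀ := hP.differentiableAt (by norm_num)
  have hhd : DifferentiableAt ℝ h (Qs s₀) := hh.differentiableAt (by norm_num)
  have hQ1 : DifferentiableAt ℝ (fderiv ℝ Qs) s₀ :=
    (hQ.fderiv_right (m := 1) (by norm_num)).differentiableAt (by norm_num)
  have hP1 : DifferentiableAt ℝ (fderiv ℝ Ps) s₀ :=
    (hP.fderiv_right (m := 1) (by norm_num)).differentiableAt (by norm_num)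
  -- first order condition
  have hfirst : ∀ v, fderiv ℝ h (Qs s₀) (fderiv ℝ Qs s₀ v) * (1 + ∑ i, (Ps s₀ (e i)) ^ 2)
      + h (Qs s₀) * ∑ i, 2 * Ps s₀ (e i) * (fderiv ℝ Ps s₀ v (e i)) = 0 := by
    intro v
    have hline : HasDerivAt (fun t : ℝ => s₀ + t • v) v 0 := by
      simpa using ((hasDerivAt_id (0 : ℝ)).smul_const v).const_add s₀
    have hlc : Tendsto (fun t : ℝ => s₀ + t • v) (𝓝 0) (𝓝 s₀) := by
      have : Continuous fun t : ℝ => s₀ + t • v := by fun_prop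
      simpa using this.tendsto 0
    have h0 : s₀ + (0 : ℝ) • v = s₀ := by simp
    have hq : HasDerivAt (fun t : ℝ => Qs (s₀ + t • v)) (fderiv ℝ Qs s₀ v) 0 := by
      have h1 : HasFDerivAt Qs (fderiv ℝ Qs s₀) (s₀ + (0 : ℝ) • v) := by
        rw [h0]; exact hQd.hasFDerivAt
      exact h1.comp_hasDerivAt (0 : ℝ) hline
    have hp : HasDerivAt (fun t : ℝ => Ps (s₀ + t • v)) (fderiv ℝ Ps s₀ v) 0 := by
      have h1 : HasFDerivAt Ps (fderiv ℝ Ps s₀) (s₀ + (0 : ℝ) • v) := by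
        rw [h0]; exact hPd.hasFDerivAt
      exact h1.comp_hasDerivAt (0 : ℝ) hline
    have hhq : HasDerivAt (fun t : ℝ => h (Qs (s₀ + t • v)))
        (fderiv ℝ h (Qs s₀) (fderiv ℝ Qs s₀ v)) 0 := by
      have h1 : HasFDerivAt h (fderiv ℝ h (Qs s₀)) (Qs (s₀ + (0 : ℝ) • v)) := by
        rw [h0]; exact hhd.hasFDerivAt
      exact h1.comp_hasDerivAt (0 : ℝ) hq
    have hN : HasDerivAt (fun t : ℝ => 1 + ∑ i, (Ps (s₀ + t • v) (e i)) ^ 2)
        (∑ i, 2 * Ps s₀ (e i) * (fderiv ℝ Ps s₀ v (e i))) 0 := by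
      have : ∀ i ∈ (Finset.univ : Finset ι), HasDerivAt
          (fun t : ℝ => (Ps (s₀ + t • v) (e i)) ^ 2)
          (2 * Ps s₀ (e i) * (fderiv ℝ Ps s₀ v (e i))) 0 := by
        intro i _
        have h1 : HasDerivAt (fun t : ℝ => Ps (s₀ + t • v) (e i))
            (fderiv ℝ Ps s₀ v (e i)) 0 := by
          simpa using hp.clm_apply (hasDerivAt_const (0 : ℝ) (e i))
        have h2 := h1.fun_pow 2
        simpa using h2
      exact (HasDerivAt.fun_sum this).const_add 1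
    have hmul := hhq.mul hN
    have hmax0 : IsLocalMax
        (fun t : ℝ => h (Qs (s₀ + t • v)) * (1 + ∑ i, (Ps (s₀ + t • v) (e i)) ^ 2)) 0 := by
      have := hlc.eventually hmax
      filter_upwards [this] with t ht
      simpa using ht
    have := hmax0.hasDerivAt_eq_zero hmul
    simpa using this
  -- the Hamiltonian vector is tangent
  obtain ⟨ξ, hξ1, hξ2⟩ := exists_of_orthogonal (fderiv ℝ Qs s₀) (fderiv ℝ Ps s₀)
    (fun v w => hsym.self_of_nhds v w) himm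
    ((2 * h (Qs s₀)) • ∑ i, (Ps s₀ (e i)) • e i)
    (-((1 + ∑ i, (Ps s₀ (e i)) ^ 2) • fderiv ℝ h (Qs s₀))) (by
      intro v
      have h1 := hfirst v
      have e1 : fderiv ℝ Ps s₀ v ((2 * h (Qs s₀)) • ∑ i, (Ps s₀ (e i)) • e i)
          = h (Qs s₀) * ∑ i, 2 * Ps s₀ (e i) * (fderiv ℝ Ps s₀ v (e i)) := by
        rw [map_smul, map_sum, smul_eq_mul, Finset.mul_sum, Finset.mul_sum]
        refine Finset.sum_congr rfl fun i _ => ?_
        rw [map_smul, smul_eq_mul]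
        ring
      rw [e1]
      have e2 : (-((1 + ∑ i, (Ps s₀ (e i)) ^ 2) • fderiv ℝ h (Qs s₀))) (fderiv ℝ Qs s₀ v)
          = -((1 + ∑ i, (Ps s₀ (e i)) ^ 2) * fderiv ℝ h (Qs s₀) (fderiv ℝ Qs s₀ v)) := by
        simp
      rw [e2]
      linarith)
  -- positivity of the crossing form
  have hcross : ∀ v, v ≠ 0 → fderiv ℝ Qs s₀ v = 0 →
      0 < fderiv ℝ Ps s₀ v (fderiv ℝ (fderiv ℝ Qs) s₀ ξ v) := by
    intro v hv0 hv
    refine lt_of_lt_of_le ?_ (crossing_form (fun i => e i) hQ hP hh hsym hmax hξ1 hξ2 hv)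
    have hB : fderiv ℝ Ps s₀ v ≠ 0 := fun hB => hv0 (himm v hv hB)
    have : 0 < ∑ i, (fderiv ℝ Ps s₀ v (e i)) ^ 2 := by
      by_contra hle
      push Not at hle
      have hz : ∀ i ∈ (Finset.univ : Finset ι), (fderiv ℝ Ps s₀ v (e i)) ^ 2 = 0 := by
        refine (Finset.sum_eq_zero_iff_of_nonneg fun i _ => sq_nonneg _).1 ?_
        exact le_antisymm hle (Finset.sum_nonneg fun i _ => sq_nonneg _)
      apply hB
      apply ContinuousLinearMap.coe_injective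
      refine e.ext fun i => ?_
      have := hz i (Finset.mem_univ i)
      simpa using this
    positivity
  -- argue by contradiction
  by_contra hcon
  rw [not_frequently] at hcon
  have hseq : Tendsto (fun k : ℕ => s₀ + (1 / ((k : ℝ) + 1)) • ξ) atTop (𝓝 s₀) := by
    have h1 : Tendsto (fun k : ℕ => (1 / ((k : ℝ) + 1)) • ξ) atTop (𝓝 ((0 : ℝ) • ξ)) :=
      tendsto_one_div_add_atTop_nhds_zero_nat.smul_const ξ
    simpa using h1.const_add s₀
  have hev : ∀ᶠ k : ℕ in atTop, ∃ w : E, ‖w‖ = 1 ∧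
      fderiv ℝ Qs (s₀ + (1 / ((k : ℝ) + 1)) • ξ) w = 0 := by
    filter_upwards [hseq.eventually hcon] with k hk
    rw [injective_iff_map_eq_zero] at hk
    push Not at hk
    obtain ⟨w, hw1, hw2⟩ := hk
    refine ⟨‖w‖⁻¹ • w, ?_, ?_⟩
    · rw [norm_smul, norm_inv, norm_norm, inv_mul_cancel₀ (norm_ne_zero_iff.2 hw2)]
    · rw [map_smul, hw1, smul_zero]
  choose! w hw using hev.exists_forall_of_atTop.choose_spec
  set K := hev.exists_forall_of_atTop.choose with hK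
  -- extract a convergent subsequence
  have hcomp : IsCompact (Metric.sphere (0 : E) 1) := isCompact_sphere 0 1
  have hmem : ∀ k, w (K + k) ∈ Metric.sphere (0 : E) 1 := by
    intro k
    rw [mem_sphere_zero_iff_norm]
    exact (hw (K + k) (Nat.le_add_right _ _)).1
  obtain ⟨w0, hw0, φ, hφ, hlim⟩ := hcomp.tendsto_subseq hmem
  have hw0n : w0 ≠ 0 := by
    intro h0
    rw [mem_sphere_zero_iff_norm, h0, norm_zero] at hw0
    exact zero_ne_one hw0
  set τ : ℕ → ℝ := fun k => 1 / (((K + φ k : ℕ) : ℝ) + 1) with hτ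
  have hτ0 : Tendsto τ atTop (𝓝 0) := by
    have h1 : Tendsto (fun k : ℕ => K + φ k) atTop atTop :=
      tendsto_atTop_mono (fun k => Nat.le_add_left _ _) hφ.tendsto_atTop
    exact tendsto_one_div_add_atTop_nhds_zero_nat.comp h1
  have hτpos : ∀ k, 0 < τ k := fun k => by positivity
  have hs : Tendsto (fun k => s₀ + τ k • ξ) atTop (𝓝 s₀) := by
    simpa using (hτ0.smul_const ξ).const_add s₀
  have hwlim : Tendsto (fun k => w (K + φ k)) atTop (𝓝 w0) := hlim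
  have hQw : ∀ k, fderiv ℝ Qs (s₀ + τ k • ξ) (w (K + φ k)) = 0 :=
    fun k => (hw (K + φ k) (Nat.le_add_right _ _)).2
  -- the limit is in the kernel
  have hQlim : Tendsto (fun k => fderiv ℝ Qs (s₀ + τ k • ξ)) atTop (𝓝 (fderiv ℝ Qs s₀)) :=
    hQ1.continuousAt.tendsto.comp hs
  have hPlim : Tendsto (fun k => fderiv ℝ Ps (s₀ + τ k • ξ)) atTop (𝓝 (fderiv ℝ Ps s₀)) :=
    hP1.continuousAt.tendsto.comp hs
  have hker : fderiv ℝ Qs s₀ w0 = 0 := by
    have h1 : Tendsto (fun k => fderiv ℝ Qs (s₀ + τ k • ξ) (w (K + φ k))) atTop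
        (𝓝 (fderiv ℝ Qs s₀ w0)) := tendsto_clm_apply hQlim hwlim
    simp only [hQw] at h1
    exact (tendsto_nhds_unique h1 tendsto_const_nhds)
  -- difference quotient
  have hdq : Tendsto (fun k => (τ k)⁻¹ • fderiv ℝ Qs (s₀ + τ k • ξ) w0) atTop
      (𝓝 (fderiv ℝ (fderiv ℝ Qs) s₀ ξ w0)) := by
    have h1 : HasDerivAt (fun t : ℝ => fderiv ℝ Qs (s₀ + t • ξ) w0)
        (fderiv ℝ (fderiv ℝ Qs) s₀ ξ w0) 0 := by
      have hline : HasDerivAt (fun t : ℝ => s₀ + t • ξ) ξ 0 := by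
        simpa using ((hasDerivAt_id (0 : ℝ)).smul_const ξ).const_add s₀
      have h0 : HasFDerivAt (fderiv ℝ Qs) (fderiv ℝ (fderiv ℝ Qs) s₀) (s₀ + (0 : ℝ) • ξ) := by
        simpa using hQ1.hasFDerivAt
      have h2 := h0.comp_hasDerivAt (0 : ℝ) hline
      simpa using h2.clm_apply (hasDerivAt_const (0 : ℝ) w0)
    have h2 := h1.tendsto_slope_zero
    have h3 : Tendsto τ atTop (𝓝[≠] 0) :=
      tendsto_nhdsWithin_iff.2 ⟨hτ0, Eventually.of_forall fun k => (hτpos k).ne'⟩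
    have h4 := h2.comp h3
    refine h4.congr fun k => ?_
    simp [hker]
  have hprod : Tendsto (fun k => fderiv ℝ Ps (s₀ + τ k • ξ) (w (K + φ k))
      ((τ k)⁻¹ • fderiv ℝ Qs (s₀ + τ k • ξ) w0)) atTop
      (𝓝 (fderiv ℝ Ps s₀ w0 (fderiv ℝ (fderiv ℝ Qs) s₀ ξ w0))) :=
    tendsto_clm_apply (tendsto_clm_apply hPlim hwlim) hdq
  have hzero : ∀ᶠ k in atTop, fderiv ℝ Ps (s₀ + τ k • ξ) (w (K + φ k))
      ((τ k)⁻¹ • fderiv ℝ Qs (s₀ + τ k • ξ) w0) = 0 := by
    filter_upwards [hs.eventually hsym] with k hk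
    rw [map_smul, hk, hQw, map_zero, smul_zero]
  have hlim0 : fderiv ℝ Ps s₀ w0 (fderiv ℝ (fderiv ℝ Qs) s₀ ξ w0) = 0 := by
    have h1 := hprod.congr' hzero
    exact (tendsto_nhds_unique h1 tendsto_const_nhds)
  exact (hcross w0 hw0n hker).ne' hlim0

end Vale.Agent.P220.H592
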