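import Vale.Agent.P220.H592.Local
import Vale.Agent.P220.H592.Rank

/-!
# Regular points of a closed exact Lagrangian
-/

open scoped Manifold ContDiff Bundle Topology
open Set Bundle Filter

namespace Vale.Agent.P220.H592


variable {V : Type*} [NormedAddCommGroup V] [NormedSpace ℝ V] [FiniteDimensional ℝ V] {Q : Type*} [TopologicalSpace Q] [ChartedSpace V Q] [IsManifold 𝓘(ℝ, V) ∞ Q]
  {L : Type*} [TopologicalSpace L] [ChartedSpace V L] [IsManifold 𝓘(ℝ, V) ∞ L]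
  {i : L → CotangentBundle V Q} (hi : IsClosedExactLagrangian i)

omit [IsManifold 𝓘(ℝ, V) ∞ L] in
theorem zs_chart {q1 : Q} {x0 x : L} (hx : x ∈ (extChartAt 𝓘(ℝ, V) x0).source) :
    zs i q1 x0 (extChartAt 𝓘(ℝ, V) x0 x) = Zc q1 (i x) := by
  unfold zs
  rw [(extChartAt 𝓘(ℝ, V) x0).left_inv hx]

include hi

theorem zs_regular_iff {q1 : Q} {x0 x : L} (hx : x ∈ (extChartAt 𝓘(ℝ, V) x0).source)
    (h : pr i x ∈ (chartAt V q1).source) :
    Function.Injective (fderiv ℝ (fun s => (zs i q1 x0 s).1) (extChartAt 𝓘(ℝ, V) x0 x)) ↔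
      Function.Injective (mfderiv 𝓘(ℝ, V) 𝓘(ℝ, V) (pr i) x) := by
  have hD := mfderiv_symm_bijective (V := V) hx
  have hK := mfderiv_chart_bijective (V := V) (x0 := q1) (x := pr i x) (by simpa using h)
  constructor
  · intro hinj a b hab
    obtain ⟨v, rfl⟩ := hD.surjective a
    obtain ⟨w, rfl⟩ := hD.surjective b
    have : v = w := by
      apply hinj
      exact (zs_fst hi hx h v).trans ((congrArg (mfderiv 𝓘(ℝ, V) 𝓘(ℝ, V) (extChartAt 𝓘(ℝ, V) q1)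
        (pr i x)) hab).trans (zs_fst hi hx h w).symm)
    rw [this]
  · intro hinj v w hvw
    rw [zs_fst hi hx h, zs_fst hi hx h] at hvw
    exact hD.injective (hinj (hK.injective hvw))

theorem zs_exact {f : L → ℝ} (hfs : ContMDiff 𝓘(ℝ, V) 𝓘(ℝ, ℝ) ∞ f)
    (hf : ∀ x, (liouville (i x)) ∘L mfderiv 𝓘(ℝ, V) (modelCot V) i x = mfderiv 𝓘(ℝ, V) 𝓘(ℝ, ℝ) f x)
    {q1 : Q} {x0 x : L} (hx : x ∈ (extChartAt 𝓘(ℝ, V) x0).source)
    (h : pr i x ∈ (chartAt V q1).source) (v : V) :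
    fderiv ℝ (fun s => f ((extChartAt 𝓘(ℝ, V) x0).symm s)) (extChartAt 𝓘(ℝ, V) x0 x) v =
      (zs i q1 x0 (extChartAt 𝓘(ℝ, V) x0 x)).2
        (fderiv ℝ (fun s => (zs i q1 x0 s).1) (extChartAt 𝓘(ℝ, V) x0 x) v) := by
  refine (fderiv_comp_symm hx ((hfs x).mdifferentiableAt (by simp)) v).trans ?_
  refine (exact_apply hi hf x _).symm.trans ?_
  refine (snd_apply (ξ := i x) h _).trans ?_
  rw [zs_chart hx, Zc_eq]
  exact congrArg (cov q1 (i x)) (zs_fst hi hx h v).symm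

omit [TopologicalSpace Q] [ChartedSpace V Q] [IsManifold 𝓘(ℝ, V) ∞ Q] hi in
/-- points near `x0` in coordinates -/
theorem eventually_chart {x0 x : L} (hx : x ∈ (extChartAt 𝓘(ℝ, V) x0).source) {P : L → Prop}
    (hP : ∀ᶠ y in 𝓝 x, P y) :
    ∀ᶠ s in 𝓝 (extChartAt 𝓘(ℝ, V) x0 x), ∃ y ∈ (extChartAt 𝓘(ℝ, V) x0).source,
      extChartAt 𝓘(ℝ, V) x0 y = s ∧ P y := by
  have h1 : Tendsto (extChartAt 𝓘(ℝ, V) x0).symm (𝓝 (extChartAt 𝓘(ℝ, V) x0 x)) (𝓝 x) := by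
    have := (contMDiffAt_symm (V := V) hx).continuousAt.tendsto
    rwa [(extChartAt 𝓘(ℝ, V) x0).left_inv hx] at this
  filter_upwards [h1.eventually hP, target_mem_nhds hx] with s hs1 hs2
  exact ⟨_, (extChartAt 𝓘(ℝ, V) x0).map_target hs2, (extChartAt 𝓘(ℝ, V) x0).right_inv hs2, hs1⟩

theorem zs_symm {q1 : Q} {x0 x : L} (hx : x ∈ (extChartAt 𝓘(ℝ, V) x0).source)
    (h : pr i x ∈ (chartAt V q1).source) :
    ∀ v w, fderiv ℝ (fun s => (zs i q1 x0 s).2) (extChartAt 𝓘(ℝ, V) x0 x) v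
        (fderiv ℝ (fun s => (zs i q1 x0 s).1) (extChartAt 𝓘(ℝ, V) x0 x) w) =
      fderiv ℝ (fun s => (zs i q1 x0 s).2) (extChartAt 𝓘(ℝ, V) x0 x) w
        (fderiv ℝ (fun s => (zs i q1 x0 s).1) (extChartAt 𝓘(ℝ, V) x0 x) v) := by
  obtain ⟨f, hfs, hf⟩ := hi.exact
  set s0 := extChartAt 𝓘(ℝ, V) x0 x with hs0
  set F : V → ℝ := fun s => f ((extChartAt 𝓘(ℝ, V) x0).symm s) with hF
  set Qs : V → V := fun s => (zs i q1 x0 s).1 with hQs
  set Ps : V → V →L[ℝ] ℝ := fun s => (zs i q1 x0 s).2 with hPs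
  have hz : ContDiffAt ℝ ∞ (zs i q1 x0) s0 := zs_contDiffAt hi hx h
  have hQ : ContDiffAt ℝ ∞ Qs s0 := contDiffAt_fst.comp s0 hz
  have hP : ContDiffAt ℝ ∞ Ps s0 := contDiffAt_snd.comp s0 hz
  have hFs : ContDiffAt ℝ ∞ F s0 := contDiffAt_comp_symm hx (hfs x)
  have hU : ∀ᶠ y in 𝓝 x, pr i y ∈ (chartAt V q1).source :=
    (pr_smooth hi).continuous.continuousAt.eventually
      ((chartAt V q1).open_source.mem_nhds h)
  have hrel : fderiv ℝ F =ᶠ[𝓝 s0] fun s => (Ps s).comp (fderiv ℝ Qs s) := by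
    filter_upwards [eventually_chart hx hU] with s hs
    obtain ⟨y, hy1, rfl, hy3⟩ := hs
    ext v
    exact zs_exact hi hfs hf hy1 hy3 v
  have hQ1 : DifferentiableAt ℝ (fderiv ℝ Qs) s0 :=
    ((hQ.of_le (m := 2) (by norm_cast)).fderiv_right (m := 1) (by norm_num)).differentiableAt (by norm_num)
  have hPd : DifferentiableAt ℝ Ps s0 := hP.differentiableAt (by simp)
  have hderiv : HasFDerivAt (fderiv ℝ F) (fderiv ℝ (fderiv ℝ F) s0) s0 :=
    (((hFs.of_le (m := 2) (by norm_cast)).fderiv_right (m := 1) (by norm_num)).differentiableAt (by norm_num)).hasFDerivAt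
  have hsF : ∀ u w, fderiv ℝ (fderiv ℝ F) s0 u w = fderiv ℝ (fderiv ℝ F) s0 w u := by
    intro u w
    exact ((hFs.of_le (m := 2) (by norm_cast)).isSymmSndFDerivAt (by simp)) u w
  have hsQ : ∀ u w, fderiv ℝ (fderiv ℝ Qs) s0 u w = fderiv ℝ (fderiv ℝ Qs) s0 w u := by
    intro u w
    exact ((hQ.of_le (m := 2) (by norm_cast)).isSymmSndFDerivAt (by simp)) u w
  have h2 : ∀ u w, fderiv ℝ (fderiv ℝ F) s0 u w =
      fderiv ℝ Ps s0 u (fderiv ℝ Qs s0 w) + Ps s0 (fderiv ℝ (fderiv ℝ Qs) s0 u w) := by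
    intro u w
    have h3 : HasFDerivAt (fun s => fderiv ℝ F s w)
        (((ContinuousLinearMap.apply ℝ ℝ w).comp (fderiv ℝ (fderiv ℝ F) s0))) s0 :=
      (ContinuousLinearMap.apply ℝ ℝ w).hasFDerivAt.comp s0 hderiv
    have h4 : HasFDerivAt (fun s => fderiv ℝ Qs s w)
        (((ContinuousLinearMap.apply ℝ V w).comp (fderiv ℝ (fderiv ℝ Qs) s0))) s0 :=
      (ContinuousLinearMap.apply ℝ V w).hasFDerivAt.comp s0 hQ1.hasFDerivAt
    have h5 := hPd.hasFDerivAt.clm_apply h4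
    have h6 : (fun s => fderiv ℝ F s w) =ᶠ[𝓝 s0] fun s => Ps s (fderiv ℝ Qs s w) := by
      filter_upwards [hrel] with s hs
      rw [hs]
      rfl
    have h7 := (h5.congr_of_eventuallyEq h6).unique h3
    have h8 := congrArg (fun l : V →L[ℝ] ℝ => l u) h7
    simp at h8
    rw [← h8]
    ring
  intro v w
  have e1 := h2 v w
  have e2 := h2 w v
  rw [hsF v w, e2, hsQ w v] at e1
  linarith

end Vale.Agent.P220.H592
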