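import Vale.Agent.P220.H592.Max

/-!
# Local structure at regular points, regular values
-/

open scoped Manifold ContDiff Bundle Topology
open Set Bundle Filter

namespace Vale.Agent.P220.H592


section linear

variable {V : Type*} [NormedAddCommGroup V] [NormedSpace ℝ V] [FiniteDimensional ℝ V]

theorem injective_iff_det (A : V →L[ℝ] V) : Function.Injective A ↔ A.det ≠ 0 := by
  have h1 : A.det = LinearMap.det (A : V →ₗ[ℝ] V) := rfl
  rw [h1, ← isUnit_iff_ne_zero, ← LinearMap.isUnit_iff_isUnit_det,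
    LinearMap.isUnit_iff_ker_eq_bot, LinearMap.ker_eq_bot]
  rfl

theorem local_of_injective {f : V → V} {A : V →L[ℝ] V} {a : V} (hf : HasStrictFDerivAt f A a)
    (hA : Function.Injective A) :
    map f (𝓝 a) = 𝓝 (f a) ∧ ∃ N ∈ 𝓝 a, InjOn f N := by
  have hsurj : Function.Surjective A := LinearMap.injective_iff_surjective.1 hA
  let e : V ≃L[ℝ] V := ContinuousLinearEquiv.ofBijective A (LinearMap.ker_eq_bot.2 hA)
    (LinearMap.range_eq_top.2 hsurj)
  have he : (e : V →L[ℝ] V) = A := ContinuousLinearEquiv.coe_ofBijective A _ _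
  have hf' : HasStrictFDerivAt f (e : V →L[ℝ] V) a := by rw [he]; exact hf
  refine ⟨hf'.map_nhds_eq_of_equiv, (hf'.toOpenPartialHomeomorph f).source, ?_, ?_⟩
  · exact (hf'.toOpenPartialHomeomorph f).open_source.mem_nhds
      hf'.mem_toOpenPartialHomeomorph_source
  · exact (hf'.toOpenPartialHomeomorph f).injOn

end linear

variable {V : Type*} [NormedAddCommGroup V] [NormedSpace ℝ V] [FiniteDimensional ℝ V] {Q : Type*} [TopologicalSpace Q] [ChartedSpace V Q] [IsManifold 𝓘(ℝ, V) ∞ Q]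
  {L : Type*} [TopologicalSpace L] [ChartedSpace V L] [IsManifold 𝓘(ℝ, V) ∞ L]
  {i : L → CotangentBundle V Q} (hi : IsClosedExactLagrangian i)

omit [IsManifold 𝓘(ℝ, V) ∞ Q] in
theorem map_chart_nhds {q1 q : Q} (h : q ∈ (chartAt V q1).source) :
    map (extChartAt 𝓘(ℝ, V) q1) (𝓝 q) = 𝓝 (extChartAt 𝓘(ℝ, V) q1 q) :=
  (chartAt V q1).map_nhds_eq h

omit [IsManifold 𝓘(ℝ, V) ∞ Q] in
theorem map_chart_symm_nhds {q1 q : Q} (h : q ∈ (chartAt V q1).source) :
    map (extChartAt 𝓘(ℝ, V) q1).symm (𝓝 (extChartAt 𝓘(ℝ, V) q1 q)) = 𝓝 q := by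
  have h1 : (chartAt V q1) q ∈ (chartAt V q1).symm.source :=
    (chartAt V q1).map_source h
  have := (chartAt V q1).symm.map_nhds_eq h1
  rw [(chartAt V q1).left_inv h] at this
  exact this

include hi

theorem zs_strict {q1 : Q} {x0 x : L} (hx : x ∈ (extChartAt 𝓘(ℝ, V) x0).source)
    (h : pr i x ∈ (chartAt V q1).source) :
    HasStrictFDerivAt (fun s => (zs i q1 x0 s).1)
      (fderiv ℝ (fun s => (zs i q1 x0 s).1) (extChartAt 𝓘(ℝ, V) x0 x)) (extChartAt 𝓘(ℝ, V) x0 x) :=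
  (contDiffAt_fst.comp _ (zs_contDiffAt hi hx h)).hasStrictFDerivAt (by simp)

omit [IsManifold 𝓘(ℝ, V) ∞ L] hi in
theorem zs_fst_eq (q1 : Q) (x0 : L) :
    (fun s => (zs i q1 x0 s).1) = extChartAt 𝓘(ℝ, V) q1 ∘ pr i ∘ (extChartAt 𝓘(ℝ, V) x0).symm := by
  funext s
  unfold zs
  rw [Zc_eq]
  rfl

theorem map_nhds_of_reg {x : L} (hx : Reg i x) : map (pr i) (𝓝 x) = 𝓝 (pr i x) := by
  have hxs : x ∈ (extChartAt 𝓘(ℝ, V) x).source := mem_extChartAt_source x
  have hq : pr i x ∈ (chartAt V (pr i x)).source := mem_chart_source _ _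
  have h1 := (local_of_injective (zs_strict hi hxs hq) ((zs_regular_iff hi hxs hq).2 hx)).1
  rw [zs_fst_eq] at h1
  rw [← Filter.map_map, ← Filter.map_map, map_chart_symm_nhds (mem_chart_source _ x)] at h1
  have e0 : (zs i (pr i x) x (extChartAt 𝓘(ℝ, V) x x)).1 = extChartAt 𝓘(ℝ, V) (pr i x) (pr i x) := by
    rw [zs_chart hxs, Zc_eq]
    rfl
  rw [e0] at h1
  have h2 := congrArg (map (extChartAt 𝓘(ℝ, V) (pr i x)).symm) h1
  rw [map_chart_symm_nhds hq, Filter.map_map] at h2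
  rw [← h2]
  have h3 : ∀ᶠ q in map (pr i) (𝓝 x),
      ((extChartAt 𝓘(ℝ, V) (pr i x)).symm ∘ extChartAt 𝓘(ℝ, V) (pr i x)) q = id q := by
    have h4 : ∀ᶠ y in 𝓝 x, pr i y ∈ (chartAt V (pr i x)).source :=
      (pr_smooth hi).continuous.continuousAt.eventually
        ((chartAt V _).open_source.mem_nhds hq)
    rw [Filter.eventually_map]
    filter_upwards [h4] with y hy
    exact (extChartAt 𝓘(ℝ, V) (pr i x)).left_inv (by simpa using hy)
  rw [Filter.map_congr h3, Filter.map_id]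

theorem injOn_of_reg {x : L} (hx : Reg i x) : ∃ N ∈ 𝓝 x, InjOn (pr i) N := by
  have hxs : x ∈ (extChartAt 𝓘(ℝ, V) x).source := mem_extChartAt_source x
  have hq : pr i x ∈ (chartAt V (pr i x)).source := mem_chart_source _ _
  obtain ⟨-, N, hN, hinj⟩ :=
    local_of_injective (zs_strict hi hxs hq) ((zs_regular_iff hi hxs hq).2 hx)
  have h5 : (extChartAt 𝓘(ℝ, V) x) ⁻¹' N ∈ 𝓝 x :=
    (continuousAt_extChartAt x).preimage_mem_nhds hN
  refine ⟨(extChartAt 𝓘(ℝ, V) x) ⁻¹' N ∩ (extChartAt 𝓘(ℝ, V) x).source,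
    inter_mem h5 (extChartAt_source_mem_nhds x), ?_⟩
  rintro y ⟨hy1, hy2⟩ z ⟨hz1, hz2⟩ hyz
  have h6 : extChartAt 𝓘(ℝ, V) x y = extChartAt 𝓘(ℝ, V) x z := by
    apply hinj hy1 hz1
    rw [zs_fst_eq]
    simp only [Function.comp_apply]
    rw [(extChartAt 𝓘(ℝ, V) x).left_inv hy2, (extChartAt 𝓘(ℝ, V) x).left_inv hz2, hyz]
  exact (extChartAt 𝓘(ℝ, V) x).injOn hy2 hz2 h6

/-- the covector vanishes at a regular local maximum of the primitive -/
theorem eq_zero_of_isLocalMax {f : L → ℝ} (hfs : ContMDiff 𝓘(ℝ, V) 𝓘(ℝ, ℝ) ∞ f)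
    (hf : ∀ x, (liouville (i x)) ∘L mfderiv 𝓘(ℝ, V) (modelCot V) i x = mfderiv 𝓘(ℝ, V) 𝓘(ℝ, ℝ) f x)
    {x : L} (hx : Reg i x) (hmax : IsLocalMax f x) : (i x).2 = 0 := by
  have hxs : x ∈ (extChartAt 𝓘(ℝ, V) x).source := mem_extChartAt_source x
  have hq : pr i x ∈ (chartAt V (pr i x)).source := mem_chart_source _ _
  have hmaxF : IsLocalMax (fun s => f ((extChartAt 𝓘(ℝ, V) x).symm s)) (extChartAt 𝓘(ℝ, V) x x) := by
    have h1 : Tendsto (extChartAt 𝓘(ℝ, V) x).symm (𝓝 (extChartAt 𝓘(ℝ, V) x x)) (𝓝 x) := by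
      have := (contMDiffAt_symm (V := V) hxs).continuousAt.tendsto
      rwa [(extChartAt 𝓘(ℝ, V) x).left_inv hxs] at this
    filter_upwards [h1.eventually hmax] with s hs
    rw [(extChartAt 𝓘(ℝ, V) x).left_inv hxs]
    exact hs
  have h0 := hmaxF.fderiv_eq_zero
  have hinj := (zs_regular_iff hi hxs hq).2 hx
  have hsurj := LinearMap.injective_iff_surjective.1 hinj
  ext w
  refine (snd_apply (ξ := i x) hq w).trans ?_
  obtain ⟨v, hv⟩ := hsurj (mfderiv 𝓘(ℝ, V) 𝓘(ℝ, V) (extChartAt 𝓘(ℝ, V) (pr i x)) (i x).1 w)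
  have h2 := zs_exact hi hfs hf hxs hq v
  rw [h0, zs_chart hxs, Zc_eq] at h2
  have h3 : (0 : ℝ) = cov (pr i x) (i x)
      (mfderiv 𝓘(ℝ, V) 𝓘(ℝ, V) (extChartAt 𝓘(ℝ, V) (pr i x)) (i x).1 w) :=
    h2.trans (congrArg (cov (pr i x) (i x)) hv)
  exact h3.symm

theorem isOpen_reg : IsOpen {x | Reg i x} := by
  rw [isOpen_iff_mem_nhds]
  intro x hx
  have hxs : x ∈ (extChartAt 𝓘(ℝ, V) x).source := mem_extChartAt_source x
  have hq : pr i x ∈ (chartAt V (pr i x)).source := mem_chart_source _ _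
  have hz : ContDiffAt ℝ ∞ (fun s => (zs i (pr i x) x s).1) (extChartAt 𝓘(ℝ, V) x x) :=
    contDiffAt_fst.comp _ (zs_contDiffAt hi hxs hq)
  have hc : ContinuousAt (fun s => (fderiv ℝ (fun s => (zs i (pr i x) x s).1) s).det)
      (extChartAt 𝓘(ℝ, V) x x) :=
    ContinuousLinearMap.continuous_det.continuousAt.comp
      ((hz.of_le (m := 1) (by norm_cast)).fderiv_right (m := 0) (by norm_num)).continuousAt
  have h1 : (fderiv ℝ (fun s => (zs i (pr i x) x s).1) (extChartAt 𝓘(ℝ, V) x x)).det ≠ 0 :=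
    (injective_iff_det _).1 ((zs_regular_iff hi hxs hq).2 hx)
  have h2 := hc.eventually_ne h1
  have h3 := (continuousAt_extChartAt (I := 𝓘(ℝ, V)) x).eventually h2
  have h4 : ∀ᶠ y in 𝓝 x, pr i y ∈ (chartAt V (pr i x)).source :=
    (pr_smooth hi).continuous.continuousAt.eventually
      ((chartAt V _).open_source.mem_nhds hq)
  filter_upwards [h3, h4, extChartAt_source_mem_nhds (I := 𝓘(ℝ, V)) x] with y hy1 hy2 hy3
  exact (zs_regular_iff hi hy3 hy2).1 ((injective_iff_det _).2 hy1)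

/-- regular values of the projection -/
def RegVal (i : L → CotangentBundle V Q) : Set Q := {q | ∀ x, pr i x = q → Reg i x}

theorem isOpen_regVal [T2Space Q] : IsOpen (RegVal i) := by
  have := hi.compact
  have h1 : RegVal i = (pr i '' {x | Reg i x}ᶜ)ᶜ := by
    ext q
    simp only [RegVal, mem_ofPred_eq, mem_compl_iff, mem_image, not_exists, not_and]
    constructor
    · intro h x hx1 hx2
      exact hx1 (h x hx2)
    · intro h x hx
      by_contra hcon
      exact h x hcon hx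
  rw [h1]
  have h2 : IsCompact ({x | Reg i x}ᶜ) := (isOpen_reg hi).isClosed_compl.isCompact
  exact (h2.image (pr_smooth hi).continuous).isClosed.isOpen_compl

theorem dense_regVal : Dense (RegVal i) := by
  have := hi.compact
  borelize V
  rw [dense_iff_inter_open]
  intro W hW hWne
  obtain ⟨q1, hq1⟩ := hWne
  -- finitely many charts
  obtain ⟨T, hT⟩ := (isCompact_univ (X := L)).elim_nhds_subcover
    (fun x => (extChartAt 𝓘(ℝ, V) x).source) (fun x _ => extChartAt_source_mem_nhds x)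
  obtain ⟨-, hT⟩ := hT
  set κ := extChartAt 𝓘(ℝ, V) q1 with hκ
  let A : L → Set V := fun x0 => {s | s ∈ (extChartAt 𝓘(ℝ, V) x0).target ∧
    pr i ((extChartAt 𝓘(ℝ, V) x0).symm s) ∈ (chartAt V q1).source ∧
    ¬ Reg i ((extChartAt 𝓘(ℝ, V) x0).symm s)}
  have hA : ∀ x0, (MeasureTheory.Measure.addHaar : MeasureTheory.Measure V) ((fun s => (zs i q1 x0 s).1) '' (A x0)) = 0 := by
    intro x0
    refine MeasureTheory.addHaar_image_eq_zero_of_det_fderivWithin_eq_zero (MeasureTheory.Measure.addHaar : MeasureTheory.Measure V)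
      (f' := fun s => fderiv ℝ (fun s => (zs i q1 x0 s).1) s) ?_ ?_
    · rintro s ⟨hs1, hs2, -⟩
      have hs3 : (extChartAt 𝓘(ℝ, V) x0).symm s ∈ (extChartAt 𝓘(ℝ, V) x0).source :=
        (extChartAt 𝓘(ℝ, V) x0).map_target hs1
      have := (zs_strict hi hs3 hs2).hasFDerivAt
      rw [(extChartAt 𝓘(ℝ, V) x0).right_inv hs1] at this
      exact this.hasFDerivWithinAt
    · rintro s ⟨hs1, hs2, hs4⟩
      have hs3 : (extChartAt 𝓘(ℝ, V) x0).symm s ∈ (extChartAt 𝓘(ℝ, V) x0).source :=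
        (extChartAt 𝓘(ℝ, V) x0).map_target hs1
      by_contra hdet
      apply hs4
      have h7 := zs_regular_iff hi hs3 hs2
      rw [(extChartAt 𝓘(ℝ, V) x0).right_inv hs1] at h7
      exact h7.1 ((injective_iff_det _).2 hdet)
  have hnull : (MeasureTheory.Measure.addHaar : MeasureTheory.Measure V) (⋃ x0 ∈ T, (fun s => (zs i q1 x0 s).1) '' (A x0)) = 0 := by
    have := (MeasureTheory.measure_biUnion_null_iff (μ := (MeasureTheory.Measure.addHaar : MeasureTheory.Measure V))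
      (s := fun x0 => (fun s => (zs i q1 x0 s).1) '' (A x0)) T.countable_toSet).2
      (fun x0 _ => hA x0)
    exact this
  -- the open set in the chart
  have hopen : IsOpen (κ.target ∩ κ.symm ⁻¹' W) :=
    (continuousOn_extChartAt_symm q1).isOpen_inter_preimage (isOpen_extChartAt_target q1) hW
  have hne : (κ.target ∩ κ.symm ⁻¹' W).Nonempty := by
    refine ⟨κ q1, κ.map_source (mem_extChartAt_source q1), ?_⟩
    rw [mem_preimage, hκ, (extChartAt 𝓘(ℝ, V) q1).left_inv (mem_extChartAt_source q1)]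
    exact hq1
  have hpos := hopen.measure_pos (MeasureTheory.Measure.addHaar : MeasureTheory.Measure V) hne
  obtain ⟨s, hs1, hs2⟩ : ((κ.target ∩ κ.symm ⁻¹' W) \
      (⋃ x0 ∈ T, (fun s => (zs i q1 x0 s).1) '' (A x0))).Nonempty := by
    rw [nonempty_iff_ne_empty]
    intro hempty
    rw [sdiff_eq_empty] at hempty
    exact hpos.ne' (MeasureTheory.measure_mono_null hempty hnull)
  refine ⟨κ.symm s, hs1.2, ?_⟩
  intro x hx
  by_contra hreg
  apply hs2
  have hxT := hT (mem_univ x)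
  simp only [mem_iUnion] at hxT ⊢
  obtain ⟨x0, hx0, hx0s⟩ := hxT
  refine ⟨x0, hx0, extChartAt 𝓘(ℝ, V) x0 x, ?_, ?_⟩
  · refine ⟨(extChartAt 𝓘(ℝ, V) x0).map_source hx0s, ?_, ?_⟩
    · rw [(extChartAt 𝓘(ℝ, V) x0).left_inv hx0s, hx]
      have := κ.map_target hs1.1
      simpa [hκ] using this
    · rw [(extChartAt 𝓘(ℝ, V) x0).left_inv hx0s]
      exact hreg
  · simp only [zs_chart hx0s, Zc_eq]
    have : (i x).1 = κ.symm s := hx
    rw [this]
    exact κ.right_inv hs1.1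

end Vale.Agent.P220.H592
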