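import Vale.Agent.P220.H592.Univ

/-!
# The symmetries of a Lagrangian induced by cotangent lifts
-/

open scoped Manifold ContDiff Bundle Topology
open Set Bundle Filter

namespace Vale.Agent.P220.H592


variable {V : Type*} [NormedAddCommGroup V] [NormedSpace ℝ V] [FiniteDimensional ℝ V] {Q : Type*} [TopologicalSpace Q] [ChartedSpace V Q] [IsManifold 𝓘(ℝ, V) ∞ Q]
  {L : Type*} [TopologicalSpace L] [ChartedSpace V L] [IsManifold 𝓘(ℝ, V) ∞ L]
  {i : L → CotangentBundle V Q} (hi : IsClosedExactLagrangian i)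

theorem surjective_of_injective (A : V →L[ℝ] V) (h : Function.Injective A) :
    Function.Surjective A := LinearMap.injective_iff_surjective.1 h

section embedding

omit [IsManifold 𝓘(ℝ, V) ∞ L]

include hi

theorem isClosedEmbedding [T2Space Q] : Topology.IsClosedEmbedding i := by
  have := hi.compact
  exact hi.smooth.continuous.isClosedEmbedding hi.injective

theorem t2 [T2Space Q] : T2Space L := (isClosedEmbedding hi).isEmbedding.t2Space

end embedding

omit [TopologicalSpace L] [ChartedSpace V L] [IsManifold 𝓘(ℝ, V) ∞ L] [IsManifold 𝓘(ℝ, V) ∞ Q] in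
theorem exists_sig (ψ : Diffeomorph 𝓘(ℝ, V) 𝓘(ℝ, V) Q Q ∞)
    (h : cotangentLift ψ '' range i = range i) (x : L) : ∃ y, i y = cotangentLift ψ (i x) := by
  have : cotangentLift ψ (i x) ∈ range i := by
    rw [← h]
    exact mem_image_of_mem _ (mem_range_self x)
  exact this

/-- the induced map of `L` -/
noncomputable def sig (i : L → CotangentBundle V Q) (ψ : Diffeomorph 𝓘(ℝ, V) 𝓘(ℝ, V) Q Q ∞)
    (h : cotangentLift ψ '' range i = range i) (x : L) : L :=
  Classical.choose (exists_sig (i := i) ψ h x)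

section sig

variable (ψ : Diffeomorph 𝓘(ℝ, V) 𝓘(ℝ, V) Q Q ∞) (h : cotangentLift ψ '' range i = range i)

omit [TopologicalSpace L] [ChartedSpace V L] [IsManifold 𝓘(ℝ, V) ∞ L] [IsManifold 𝓘(ℝ, V) ∞ Q] in
theorem i_sig (x : L) : i (sig i ψ h x) = cotangentLift ψ (i x) :=
  Classical.choose_spec (exists_sig (i := i) ψ h x)

omit [TopologicalSpace L] [ChartedSpace V L] [IsManifold 𝓘(ℝ, V) ∞ L] [IsManifold 𝓘(ℝ, V) ∞ Q] in
theorem pr_sig (x : L) : pr i (sig i ψ h x) = ψ (pr i x) := by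
  unfold pr
  rw [i_sig ψ h]
  rfl

include hi

omit [IsManifold 𝓘(ℝ, V) ∞ L] in
theorem sig_bijective : Function.Bijective (sig i ψ h) := by
  constructor
  · intro x y hxy
    have h1 := congrArg i hxy
    rw [i_sig ψ h, i_sig ψ h] at h1
    have h2 := congrArg (cotangentLift ψ.symm) h1
    rw [cotangentLift_symm_apply, cotangentLift_symm_apply] at h2
    exact hi.injective h2
  · intro y
    have h1 : i y ∈ cotangentLift ψ '' range i := by rw [h]; exact mem_range_self y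
    obtain ⟨_, ⟨x, rfl⟩, hx⟩ := h1
    refine ⟨x, hi.injective ?_⟩
    rw [i_sig ψ h, hx]

omit [IsManifold 𝓘(ℝ, V) ∞ L] in
theorem sig_continuous [T2Space Q] : Continuous (sig i ψ h) := by
  rw [(isClosedEmbedding hi).isEmbedding.isInducing.continuous_iff]
  have h1 : i ∘ sig i ψ h = cotangentLift ψ ∘ i := funext fun x => i_sig ψ h x
  rw [h1]
  exact (cotangentLift_contMDiff ψ).continuous.comp hi.smooth.continuous

theorem sig_contMDiff [T2Space Q] : ContMDiff 𝓘(ℝ, V) 𝓘(ℝ, V) ∞ (sig i ψ h) := by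
  intro x
  apply smooth_of_comp hi (sig_continuous hi ψ h).continuousAt
  have h1 : (fun x => i (sig i ψ h x)) = cotangentLift ψ ∘ i := funext fun x => i_sig ψ h x
  rw [h1]
  exact ((cotangentLift_contMDiff ψ).comp hi.smooth) x

theorem mfderiv_sig [T2Space Q] (x : L) (v : TangentSpace 𝓘(ℝ, V) x) :
    mfderiv 𝓘(ℝ, V) 𝓘(ℝ, V) (pr i) (sig i ψ h x) (mfderiv 𝓘(ℝ, V) 𝓘(ℝ, V) (sig i ψ h) x v) =
      mfderiv 𝓘(ℝ, V) 𝓘(ℝ, V) ψ (pr i x) (mfderiv 𝓘(ℝ, V) 𝓘(ℝ, V) (pr i) x v) := by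
  have e1 := mfderiv_comp x ((pr_smooth hi (sig i ψ h x)).mdifferentiableAt (by simp))
    ((sig_contMDiff hi ψ h x).mdifferentiableAt (by simp))
  have e2 := mfderiv_comp x ((ψ.contMDiff (pr i x)).mdifferentiableAt (by simp))
    ((pr_smooth hi x).mdifferentiableAt (by simp))
  have e3 : pr i ∘ sig i ψ h = ψ ∘ pr i := funext fun x => pr_sig ψ h x
  rw [e3] at e1
  have e4 := e1.symm.trans e2
  exact congrArg (fun l : V →L[ℝ] V => l v) e4

theorem mfderiv_sig_injective [T2Space Q] (x : L) :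
    Function.Injective (mfderiv 𝓘(ℝ, V) 𝓘(ℝ, V) (sig i ψ h) x) := by
  have h' : cotangentLift ψ.symm '' range i = range i := by
    conv_lhs => rw [← h]
    rw [image_image]
    simp only [cotangentLift_symm_apply, image_id']
  have e0 : sig i ψ.symm h' ∘ sig i ψ h = id := by
    funext x
    apply hi.injective
    simp only [Function.comp_apply, id_eq]
    rw [i_sig ψ.symm h', i_sig ψ h, cotangentLift_symm_apply]
  have e1 := mfderiv_comp x ((sig_contMDiff hi ψ.symm h' (sig i ψ h x)).mdifferentiableAt (by simp))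
    ((sig_contMDiff hi ψ h x).mdifferentiableAt (by simp))
  rw [e0, mfderiv_id] at e1
  intro v w hvw
  have e2 := congrArg (fun l : V →L[ℝ] V => l v) e1
  have e3 := congrArg (fun l : V →L[ℝ] V => l w) e1
  refine e2.trans (Eq.trans ?_ e3.symm)
  exact congrArg (mfderiv 𝓘(ℝ, V) 𝓘(ℝ, V) (sig i ψ.symm h') (sig i ψ h x)) hvw

theorem reg_sig_iff [T2Space Q] (x : L) : Reg i (sig i ψ h x) ↔ Reg i x := by
  have hinj := mfderiv_sig_injective hi ψ h x
  have hlin : Function.Surjective (mfderiv 𝓘(ℝ, V) 𝓘(ℝ, V) (sig i ψ h) x) :=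
    surjective_of_injective (V := V) (mfderiv 𝓘(ℝ, V) 𝓘(ℝ, V) (sig i ψ h) x) hinj
  constructor
  · intro hr v w hvw
    apply hinj
    apply hr
    refine (mfderiv_sig hi ψ h x v).trans (Eq.trans ?_ (mfderiv_sig hi ψ h x w).symm)
    exact congrArg (mfderiv 𝓘(ℝ, V) 𝓘(ℝ, V) ψ (pr i x)) hvw
  · intro hr a b hab
    obtain ⟨v, rfl⟩ := hlin a
    obtain ⟨w, rfl⟩ := hlin b
    have h1 := (mfderiv_sig hi ψ h x v).symm.trans (hab.trans (mfderiv_sig hi ψ h x w))
    have h2 := hr (mfderiv_diffeo_injective ψ _ h1)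
    rw [h2]

theorem mfderiv_comp_sig [T2Space Q] {f : L → ℝ} (hfs : ContMDiff 𝓘(ℝ, V) 𝓘(ℝ, ℝ) ∞ f)
    (hf : ∀ x, (liouville (i x)) ∘L mfderiv 𝓘(ℝ, V) (modelCot V) i x = mfderiv 𝓘(ℝ, V) 𝓘(ℝ, ℝ) f x)
    (x : L) (v : TangentSpace 𝓘(ℝ, V) x) :
    mfderiv 𝓘(ℝ, V) 𝓘(ℝ, ℝ) (f ∘ sig i ψ h) x v = mfderiv 𝓘(ℝ, V) 𝓘(ℝ, ℝ) f x v := by
  have e1 := mfderiv_comp x ((hfs (sig i ψ h x)).mdifferentiableAt (by simp))
    ((sig_contMDiff hi ψ h x).mdifferentiableAt (by simp))
  have e2 := congrArg (fun l : V →L[ℝ] ℝ => l v) e1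
  refine e2.trans ?_
  refine (exact_apply hi hf (sig i ψ h x) _).symm.trans ?_
  have e3 := exact_apply hi hf x v
  refine Eq.trans ?_ e3
  have e4 := congrArg (i (sig i ψ h x)).2 (mfderiv_sig hi ψ h x v)
  refine e4.trans ?_
  have e5 : ∀ ξ : CotangentBundle V Q, i (sig i ψ h x) = ξ → ∀ w : V,
      ((i (sig i ψ h x)).2 : V →L[ℝ] ℝ) w = (ξ.2 : V →L[ℝ] ℝ) w := by
    rintro ξ rfl w; rfl
  refine (e5 _ (i_sig ψ h x) _).trans ?_
  exact congrArg (i x).2 (mfderiv_inverse_apply ψ (pr i x) _)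

end sig

end Vale.Agent.P220.H592
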