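import Vale.Agent.P220.H592.Main
import Vale.Agent.P220.H592.Public

/-!
# From the public definitions to the working definitions
-/

open scoped Manifold ContDiff Bundle Topology
open Set Bundle Filter

namespace Vale.Agent.P220.H592

variable {V : Type*} [NormedAddCommGroup V] [NormedSpace ℝ V]
  {Q : Type*} [TopologicalSpace Q] [ChartedSpace V Q] [IsManifold 𝓘(ℝ, V) ∞ Q]
  {L : Type*} [TopologicalSpace L] [ChartedSpace V L]

theorem self_prod : 𝓘(ℝ, V × (V →L[ℝ] ℝ)) = modelCot V := modelWithCornersSelf_prod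

/-- the public notion of closed exact Lagrangian implies the working one -/
theorem IsClosedExactLagrangian.of_public {i : L → CotangentBundle V Q}
    (hi : Vale.Agent.P220.IsClosedExactLagrangian (V := V) (Q := Q) i) :
    IsClosedExactLagrangian i := by
  have key : ∀ J : ModelWithCorners ℝ (V × (V →L[ℝ] ℝ)) (ModelProd V (V →L[ℝ] ℝ)),
      J = modelCot V → ContMDiff 𝓘(ℝ, V) J ∞ i →
      (∀ x, Function.Injective (mfderiv 𝓘(ℝ, V) J i x)) →
      (∃ f : L → ℝ, ContMDiff 𝓘(ℝ, V) 𝓘(ℝ, ℝ) ∞ f ∧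
        ∀ x, ((i x).2 ∘L
            mfderiv J 𝓘(ℝ, V) (fun η : CotangentBundle V Q => η.1) (i x)) ∘L
            mfderiv 𝓘(ℝ, V) J i x = mfderiv 𝓘(ℝ, V) 𝓘(ℝ, ℝ) f x) →
      IsClosedExactLagrangian i := by
    rintro J rfl h1 h2 h3
    exact ⟨hi.compact, h1, hi.injective, h2, h3⟩
  exact key _ self_prod hi.smooth hi.immersion hi.exact

end Vale.Agent.P220.H592
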