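import Vale.Agent.P220.H592.Lift

/-!
# Maps into an embedded Lagrangian
-/

open scoped Manifold ContDiff Bundle Topology
open Set Bundle Filter

namespace Vale.Agent.P220.H592


/-- a smooth map with injective derivative has, locally, a smooth left inverse -/
theorem exists_left_inverse {V W : Type*} [NormedAddCommGroup V] [NormedSpace ℝ V]
    [FiniteDimensional ℝ V] [NormedAddCommGroup W] [NormedSpace ℝ W] [FiniteDimensional ℝ W]
    {z : V → W} {s0 : V} (hz : ContDiffAt ℝ ∞ z s0)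
    (hinj : Function.Injective (fderiv ℝ z s0)) :
    ∃ r : W → V, ContDiffAt ℝ ∞ r (z s0) ∧ ∀ᶠ s in 𝓝 s0, r (z s) = s := by
  have hV : CompleteSpace V := FiniteDimensional.complete ℝ V
  obtain ⟨Λ0, hΛ0⟩ := LinearMap.exists_leftInverse_of_injective
    (fderiv ℝ z s0 : V →ₗ[ℝ] W) (LinearMap.ker_eq_bot.2 hinj)
  let Λ : W →L[ℝ] V := LinearMap.toContinuousLinearMap Λ0
  have hΛ : ∀ v, Λ (fderiv ℝ z s0 v) = v := fun v => congrArg (fun l : V →ₗ[ℝ] V => l v) hΛ0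
  have hh : ContDiffAt ℝ ∞ (fun s => Λ (z s)) s0 := Λ.contDiff.contDiffAt.comp s0 hz
  have hd : HasFDerivAt (fun s => Λ (z s))
      ((ContinuousLinearEquiv.refl ℝ V : V ≃L[ℝ] V) : V →L[ℝ] V) s0 := by
    have h1 : HasFDerivAt (fun s => Λ (z s)) (Λ.comp (fderiv ℝ z s0)) s0 :=
      Λ.hasFDerivAt.comp s0 (hz.differentiableAt (by simp)).hasFDerivAt
    have h2 : Λ.comp (fderiv ℝ z s0) =
        ((ContinuousLinearEquiv.refl ℝ V : V ≃L[ℝ] V) : V →L[ℝ] V) := by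
      ext v
      exact hΛ v
    rwa [h2] at h1
  have hn : (∞ : WithTop ℕ∞) ≠ 0 := by simp
  refine ⟨fun w => hh.localInverse hd hn (Λ w), ?_, ?_⟩
  · exact (hh.to_localInverse hd hn).comp (z s0) Λ.contDiff.contDiffAt
  · exact (hh.hasStrictFDerivAt' hd hn).eventually_left_inverse

variable {V : Type*} [NormedAddCommGroup V] [NormedSpace ℝ V] [FiniteDimensional ℝ V] {Q : Type*} [TopologicalSpace Q] [ChartedSpace V Q] [IsManifold 𝓘(ℝ, V) ∞ Q]
  {L : Type*} [TopologicalSpace L] [ChartedSpace V L] [IsManifold 𝓘(ℝ, V) ∞ L]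
  {i : L → CotangentBundle V Q} (hi : IsClosedExactLagrangian i)

include hi

theorem smooth_of_comp {EM HM M : Type*} [NormedAddCommGroup EM] [NormedSpace ℝ EM]
    [TopologicalSpace HM] {I : ModelWithCorners ℝ EM HM} [TopologicalSpace M] [ChartedSpace HM M]
    {g : M → L} {x0 : M} (hg : ContinuousAt g x0)
    (h : ContMDiffAt I (modelCot V) ∞ (fun x => i (g x)) x0) : ContMDiffAt I 𝓘(ℝ, V) ∞ g x0 := by
  rw [contMDiffAt_iff_target]
  refine ⟨hg, ?_⟩
  set y0 := g x0 with hy0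
  have hxs : y0 ∈ (extChartAt 𝓘(ℝ, V) y0).source := mem_extChartAt_source y0
  have hq : pr i y0 ∈ (chartAt V (pr i y0)).source := mem_chart_source _ _
  obtain ⟨r, hr1, hr2⟩ := exists_left_inverse (zs_contDiffAt hi hxs hq) (zs_injective hi hxs hq)
  rw [zs_chart hxs] at hr1
  have h1 : ContMDiffAt (modelCot V) 𝓘(ℝ, V × (V →L[ℝ] ℝ)) ∞
      (extChartAt (modelCot V) (⟨pr i y0, 0⟩ : CotangentBundle V Q)) (i (g x0)) := by
    apply contMDiffAt_extChartAt'
    have := mem_Zc_source (ξ := i y0) hq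
    rwa [extChartAt_source] at this
  have h2 : ContMDiffAt I 𝓘(ℝ, V × (V →L[ℝ] ℝ)) ∞ (fun x => Zc (pr i y0) (i (g x))) x0 :=
    h1.comp x0 h
  have h3 : ContMDiffAt I 𝓘(ℝ, V) ∞ (fun x => r (Zc (pr i y0) (i (g x)))) x0 :=
    (contMDiffAt_iff_contDiffAt.2 hr1).comp x0 h2
  refine h3.congr_of_eventuallyEq ?_
  have h4 : ∀ᶠ y in 𝓝 y0, r (zs i (pr i y0) y0 (extChartAt 𝓘(ℝ, V) y0 y)) = extChartAt 𝓘(ℝ, V) y0 y :=
    (continuousAt_extChartAt y0).eventually hr2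
  have h5 : ∀ᶠ y in 𝓝 y0, y ∈ (extChartAt 𝓘(ℝ, V) y0).source := extChartAt_source_mem_nhds y0
  filter_upwards [hg.eventually h4, hg.eventually h5] with x hx1 hx2
  rw [zs_chart hx2] at hx1
  exact hx1.symm

end Vale.Agent.P220.H592
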